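import Vale.Agent.Lib.P371.SharpM.CoreMat
import Vale.Agent.Lib.P371.Sharp.Final
import Vale.Agent.Lib.P371.MainF

/-!
# The sharp inequality at `γ = 1` for matrix potentials: the final form.

The curves of `core_coordM` are transported to a finite dimensional real inner product space, the
scaling parameter is removed, then the regularity by the box mollifier. The rows are built from the
channels of an orthonormal family in `H¹(ℝ; ℂ^m)`; the matrix `X = ∑ ξ_r ξ_rᵀ` only depends on the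
Gram matrix of the family, so that it can be computed in the eigenbasis of `W(x)` for every `x`.
-/

open MeasureTheory Set Filter Topology Matrix
open scoped ENNReal ComplexOrder

namespace Vale.Agent.Lib.P371.SharpM

open Vale.Agent.Lib.P371.Sharp
open Vale.Agent.Lib.P371.S (boxAvg boxAvg_hasDerivAt boxAvg_tendsto avg_sq_lint ii_of_memLp
  integrable_norm_sq')

section algebra
variable {d : ℕ} {ι : Type*} [Fintype ι]

lemma mulVec_rowsum (y : ι → Vec d) (z : Vec d) :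
    (∑ r, vecMulVec (y r) (y r)) *ᵥ z = ∑ r, (y r ⬝ᵥ z) • y r := by
  rw [Matrix.sum_mulVec]
  refine Finset.sum_congr rfl fun r _ => ?_
  ext i
  simp only [mulVec, dotProduct, vecMulVec_apply, Pi.smul_apply, smul_eq_mul, Finset.sum_mul]
  exact Finset.sum_congr rfl fun j _ => by ring

lemma dot_self_nonneg' (y : Vec d) : 0 ≤ y ⬝ᵥ y := by
  simp only [dotProduct]
  exact Finset.sum_nonneg fun i _ => mul_self_nonneg _

lemma dot_sq_le (a b : Vec d) : (a ⬝ᵥ b) ^ 2 ≤ (a ⬝ᵥ a) * (b ⬝ᵥ b) := by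
  simp only [dotProduct]
  have := Finset.sum_mul_sq_le_sq_mul_sq Finset.univ a b
  simpa [sq] using this

/-- The pointwise inequality `∑ |y_r|⁶ ≤ tr X³` for `X = ∑ y_r y_rᵀ`. -/
lemma sum_dot_cube_le (y : ι → Vec d) (X : Mat d) (hX : X = ∑ r, vecMulVec (y r) (y r)) :
    ∑ r, (y r ⬝ᵥ y r) ^ 3 ≤ (X * X * X).trace := by
  have hsymm : Xᵀ = X := by
    rw [hX, Matrix.transpose_sum]
    refine Finset.sum_congr rfl fun r _ => ?_
    ext i j
    simp [vecMulVec_apply, mul_comm]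
  have htr : (X * X * X).trace = ∑ r, (X *ᵥ y r) ⬝ᵥ (X *ᵥ y r) := by
    conv_lhs => rw [show X * X * X = X * X * ∑ r, vecMulVec (y r) (y r) by rw [← hX]]
    rw [Matrix.mul_sum, Matrix.trace_sum]
    refine Finset.sum_congr rfl fun r _ => ?_
    have e1 : (X * X * vecMulVec (y r) (y r)).trace = y r ⬝ᵥ ((X * X) *ᵥ y r) := by
      simp only [Matrix.trace, Matrix.diag, Matrix.mul_apply, vecMulVec_apply, dotProduct, mulVec]
      rw [Finset.sum_congr rfl fun i _ => (Finset.sum_congr rfl fun k _ =>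
        (by ring : (∑ j, X i j * X j k) * (y r k * y r i) = y r i * ((∑ j, X i j * X j k) * y r k)))]
      refine Finset.sum_congr rfl fun i _ => ?_
      rw [Finset.mul_sum]
    rw [e1, ← Matrix.mulVec_mulVec, Matrix.dotProduct_mulVec, ← Matrix.mulVec_transpose, hsymm]
  rw [htr]
  refine Finset.sum_le_sum fun r _ => ?_
  set s := y r ⬝ᵥ y r with hs
  set w := X *ᵥ y r with hw
  have hs0 : 0 ≤ s := dot_self_nonneg' _
  have hw0 : 0 ≤ w ⬝ᵥ w := dot_self_nonneg' _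
  have h1 : s ^ 2 ≤ y r ⬝ᵥ w := by
    have : w = ∑ q, (y q ⬝ᵥ y r) • y q := by rw [hw, hX, mulVec_rowsum]
    rw [this, dotProduct_sum]
    simp only [dotProduct_smul, smul_eq_mul]
    have hterm : ∀ q, 0 ≤ (y q ⬝ᵥ y r) * (y r ⬝ᵥ y q) := fun q => by
      rw [dotProduct_comm (y r) (y q)]
      exact mul_self_nonneg _
    calc s ^ 2 = (y r ⬝ᵥ y r) * (y r ⬝ᵥ y r) := by rw [hs]; ring
      _ ≤ _ := Finset.single_le_sum (f := fun q => (y q ⬝ᵥ y r) * (y r ⬝ᵥ y q))
          (fun q _ => hterm q) (Finset.mem_univ r)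
  have h2 := dot_sq_le (y r) w
  rcases hs0.eq_or_lt with h0 | hpos
  · rw [← h0]
    simpa using hw0
  · have h3 : (s ^ 2) ^ 2 ≤ s * (w ⬝ᵥ w) :=
      (pow_le_pow_left₀ (by positivity) h1 2).trans h2
    have h4 : s * s ^ 3 ≤ s * (w ⬝ᵥ w) := by nlinarith
    exact le_of_mul_le_mul_left h4 hpos

end algebra

section general

variable {E : Type*} [NormedAddCommGroup E] [InnerProductSpace ℝ E] [FiniteDimensional ℝ E]
variable {ι : Type*} [Fintype ι]

/-- The bilinear form `B_z(u,v) = ∑_r ⟨u,z_r⟩⟨v,z_r⟩`. -/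
noncomputable def bform (z : ι → E) (u v : E) : ℝ := ∑ r, inner ℝ u (z r) * inner ℝ v (z r)

/-- The matrix of `B_z` in the standard orthonormal basis. -/
noncomputable def gramE (z : ι → E) : Mat (Module.finrank ℝ E) :=
  Matrix.of fun i k => bform z (stdOrthonormalBasis ℝ E i) (stdOrthonormalBasis ℝ E k)

/-- The trace of the cube of `∑ z_r z_rᵀ`. -/
noncomputable def cubeTr (z : ι → E) : ℝ := (gramE z * gramE z * gramE z).trace

omit [FiniteDimensional ℝ E] in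
lemma bform_self (z : ι → E) (u : E) : bform z u u = ∑ r, (inner ℝ u (z r)) ^ 2 :=
  Finset.sum_congr rfl fun _ _ => (sq _).symm

lemma cubeTr_congr {κ : Type*} [Fintype κ] {z : ι → E} {η : κ → E}
    (h : ∀ u v, bform z u v = bform η u v) : cubeTr z = cubeTr η := by
  have : gramE z = gramE η := by
    ext i k
    exact h _ _
  rw [cubeTr, cubeTr, this]

lemma gramE_eq_sum (z : ι → E) :
    gramE z = ∑ r, vecMulVec (fun i => inner ℝ (stdOrthonormalBasis ℝ E i) (z r))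
      (fun i => inner ℝ (stdOrthonormalBasis ℝ E i) (z r)) := by
  ext i k
  simp [gramE, bform, Matrix.sum_apply, vecMulVec_apply]

/-- The pointwise inequality `∑ ‖z_r‖⁶ ≤ tr X³`. -/
lemma sum_norm_six_le (z : ι → E) : ∑ r, ‖z r‖ ^ 6 ≤ cubeTr z := by
  have h := sum_dot_cube_le (fun r i => inner ℝ (stdOrthonormalBasis ℝ E i) (z r)) (gramE z)
    (gramE_eq_sum z)
  have hy : ∀ r, (fun i => inner ℝ (stdOrthonormalBasis ℝ E i) (z r)) ⬝ᵥ
      (fun i => inner ℝ (stdOrthonormalBasis ℝ E i) (z r)) = ‖z r‖ ^ 2 := by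
    intro r
    rw [← (stdOrthonormalBasis ℝ E).sum_sq_inner_right (z r)]
    simp [dotProduct, sq]
  simp only [hy] at h
  calc ∑ r, ‖z r‖ ^ 6 = ∑ r, (‖z r‖ ^ 2) ^ 3 := Finset.sum_congr rfl fun r _ => by ring
    _ ≤ _ := h

lemma cubeTr_nonneg (z : ι → E) : 0 ≤ cubeTr z :=
  (Finset.sum_nonneg fun r _ => by positivity).trans (sum_norm_six_le z)

lemma continuous_cubeTr {α : Type*} [TopologicalSpace α] {Φ : ι → α → E}
    (hΦ : ∀ r, Continuous (Φ r)) : Continuous fun x => cubeTr fun r => Φ r x := by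
  have hG : Continuous fun x => gramE fun r => Φ r x :=
    continuous_matrix fun i k => continuous_finsetSum _ fun r _ =>
      (continuous_const.inner (hΦ r)).mul (continuous_const.inner (hΦ r))
  exact ((hG.matrix_mul hG).matrix_mul hG).matrix_trace

/-- The scaled estimate for a finite family of curves. -/
theorem coreM_scaled {Φ Φ' : ι → ℝ → E} (hΦ : ∀ r x, HasDerivAt (Φ r) (Φ' r x) x)
    (hΦ'c : ∀ r, Continuous (Φ' r))
    (hL2 : ∀ r, Integrable fun x => ‖Φ r x‖ ^ 2) (hL2' : ∀ r, Integrable fun x => ‖Φ' r x‖ ^ 2)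
    (hbes : ∀ e : E, ∑ r, ∫ x, (inner ℝ e (Φ r x)) ^ 2 ≤ ‖e‖ ^ 2)
    {ε : ℝ} (hε : 0 < ε) (hε2 : ε < 1 / 2) :
    Integrable (fun x => cubeTr fun r => Φ r x) ∧
    Real.pi ^ 2 / 4 * (1 - 2 * ε) ^ 2 * ∫ x, cubeTr (fun r => Φ r x) ≤ ∑ r, ∫ x, ‖Φ' r x‖ ^ 2 := by
  have hΦc : ∀ r, Continuous (Φ r) := fun r =>
    continuous_iff_continuousAt.2 fun x => (hΦ r x).continuousAt
  set c : ℝ := 1 - 2 * ε with hc
  have hc0 : 0 < c := by rw [hc]; linarith
  set t : ℝ := Real.sqrt c with ht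
  have ht2 : t ^ 2 = c := Real.sq_sqrt hc0.le
  set b := stdOrthonormalBasis ℝ E with hb
  set e₀ := Fintype.equivFin ι with he₀
  set ξ : ℝ → Fin (Fintype.card ι) → Vec (Module.finrank ℝ E) :=
    fun x r i => t * inner ℝ (b i) (Φ (e₀.symm r) x) with hξdef
  set ξ' : ℝ → Fin (Fintype.card ι) → Vec (Module.finrank ℝ E) :=
    fun x r i => t * inner ℝ (b i) (Φ' (e₀.symm r) x) with hξ'def
  have hξ : ∀ x r i, HasDerivAt (fun y => ξ y r i) (ξ' x r i) x := fun x r i =>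
    (((innerSL ℝ (b i)).hasFDerivAt.comp_hasDerivAt x (hΦ _ x))).const_mul t
  have hξ'c : Continuous ξ' :=
    continuous_pi fun r => continuous_pi fun i =>
      continuous_const.mul (continuous_const.inner (hΦ'c _))
  have hsq : ∀ (u : E), ∑ i, (t * inner ℝ (b i) u) * (t * inner ℝ (b i) u) = c * ‖u‖ ^ 2 := by
    intro u
    rw [← b.sum_sq_inner_right u, Finset.mul_sum, ← ht2]
    exact Finset.sum_congr rfl fun i _ => by ring
  have hdot' : ∀ x r, ξ' x r ⬝ᵥ ξ' x r = c * ‖Φ' (e₀.symm r) x‖ ^ 2 := fun x r => hsq _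
  have hinner_dom : ∀ {e : E} {Ψ : ℝ → E}, Continuous Ψ → Integrable (fun x => ‖Ψ x‖ ^ 2) →
      Integrable fun x => (inner ℝ e (Ψ x) : ℝ) ^ 2 := by
    intro e Ψ hΨc hΨ
    refine (hΨ.const_mul (‖e‖ ^ 2)).mono' (((continuous_const.inner hΨc).pow 2).aestronglyMeasurable)
      (Eventually.of_forall fun x => ?_)
    rw [Real.norm_of_nonneg (sq_nonneg _), ← mul_pow, ← sq_abs]
    exact pow_le_pow_left₀ (abs_nonneg _) (abs_real_inner_le_norm e (Ψ x)) 2
  have hL2c : ∀ r i, Integrable fun x => ξ x r i ^ 2 := by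
    intro r i
    have := (hinner_dom (e := b i) (hΦc _) (hL2 (e₀.symm r))).const_mul (t ^ 2)
    refine this.congr (Eventually.of_forall fun x => ?_)
    simp only [hξdef]
    ring
  have hL2c' : ∀ r i, Integrable fun x => ξ' x r i ^ 2 := by
    intro r i
    have := (hinner_dom (e := b i) (hΦ'c _) (hL2' (e₀.symm r))).const_mul (t ^ 2)
    refine this.congr (Eventually.of_forall fun x => ?_)
    simp only [hξ'def]
    ring
  have hbes' : ∀ v : Vec (Module.finrank ℝ E),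
      ∑ r, ∫ x, (v ⬝ᵥ ξ x r) ^ 2 ≤ (1 - 2 * ε) * (v ⬝ᵥ v) := by
    intro v
    set e : E := ∑ i, v i • b i with he
    have he2 : ‖e‖ ^ 2 = v ⬝ᵥ v := by
      rw [← real_inner_self_eq_norm_sq, he, b.orthonormal.inner_sum v v Finset.univ]
      simp [dotProduct]
    have hinner : ∀ x r, v ⬝ᵥ ξ x r = t * inner ℝ e (Φ (e₀.symm r) x) := by
      intro x r
      rw [he, sum_inner, Finset.mul_sum]
      refine Finset.sum_congr rfl fun i _ => ?_
      rw [real_inner_smul_left]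
      simp only [hξdef]
      ring
    have e1 : ∀ x r, (v ⬝ᵥ ξ x r) ^ 2 = c * (inner ℝ e (Φ (e₀.symm r) x) : ℝ) ^ 2 := by
      intro x r
      rw [hinner, mul_pow, ht2]
    simp only [e1, integral_const_mul]
    rw [← Finset.mul_sum, ← he2]
    refine mul_le_mul_of_nonneg_left ?_ hc0.le
    have h2 := hbes e
    rwa [← Equiv.sum_comp e₀.symm] at h2
  obtain ⟨hint, hineq⟩ := core_coordM hε hξ hξ'c hL2c hL2c' hbes'
  have hX : ∀ x, rowX (ξ x) = c • gramE fun r => Φ r x := by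
    intro x
    ext i k
    simp only [rowX, Matrix.sum_apply, vecMulVec_apply, hξdef, Matrix.smul_apply, smul_eq_mul, gramE,
      Matrix.of_apply, bform]
    rw [← Equiv.sum_comp e₀.symm (fun r => inner ℝ (stdOrthonormalBasis ℝ E i) (Φ r x) *
      inner ℝ (stdOrthonormalBasis ℝ E k) (Φ r x)), Finset.mul_sum, ← ht2]
    exact Finset.sum_congr rfl fun r _ => by ring
  have hcube : ∀ x, (rowX (ξ x) * rowX (ξ x) * rowX (ξ x)).trace = c ^ 3 * cubeTr fun r => Φ r x := by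
    intro x
    rw [hX, cubeTr]
    simp only [Matrix.smul_mul, Matrix.mul_smul, Matrix.trace_smul, smul_eq_mul]
    ring
  simp only [hcube, hdot'] at hint hineq
  have hI6 : Integrable fun x => cubeTr fun r => Φ r x := by
    have := hint.const_mul ((c ^ 3)⁻¹)
    refine this.congr (Eventually.of_forall fun x => ?_)
    field_simp
  refine ⟨hI6, ?_⟩
  rw [integral_const_mul] at hineq
  simp only [integral_const_mul] at hineq
  rw [← Finset.mul_sum, Equiv.sum_comp e₀.symm (fun r => ∫ x, ‖Φ' r x‖ ^ 2)] at hineq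
  have h3 : c * (Real.pi ^ 2 / 4 * c ^ 2 * ∫ x, cubeTr fun r => Φ r x) ≤
      c * ∑ r, ∫ x, ‖Φ' r x‖ ^ 2 := by
    calc c * (Real.pi ^ 2 / 4 * c ^ 2 * ∫ x, cubeTr fun r => Φ r x)
        = Real.pi ^ 2 / 4 * (c ^ 3 * ∫ x, cubeTr fun r => Φ r x) := by ring
      _ ≤ _ := hineq
  exact le_of_mul_le_mul_left h3 hc0

/-- The sharp estimate for `C¹` curves. -/
theorem coreM_C1 {Φ Φ' : ι → ℝ → E} (hΦ : ∀ r x, HasDerivAt (Φ r) (Φ' r x) x)
    (hΦ'c : ∀ r, Continuous (Φ' r))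
    (hL2 : ∀ r, Integrable fun x => ‖Φ r x‖ ^ 2) (hL2' : ∀ r, Integrable fun x => ‖Φ' r x‖ ^ 2)
    (hbes : ∀ e : E, ∑ r, ∫ x, (inner ℝ e (Φ r x)) ^ 2 ≤ ‖e‖ ^ 2) :
    ∫⁻ x, ENNReal.ofReal (cubeTr fun r => Φ r x) ≤
      ENNReal.ofReal ((4 / Real.pi ^ 2) * ∑ r, ∫ x, ‖Φ' r x‖ ^ 2) := by
  have hI6 := (coreM_scaled hΦ hΦ'c hL2 hL2' hbes (ε := 1 / 4) (by norm_num) (by norm_num)).1
  set I := ∫ x, cubeTr fun r => Φ r x with hI
  set T := ∑ r, ∫ x, ‖Φ' r x‖ ^ 2 with hT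
  have hpi : 0 < Real.pi ^ 2 := by positivity
  have hlim : Tendsto (fun ε : ℝ => Real.pi ^ 2 / 4 * (1 - 2 * ε) ^ 2 * I) (𝓝[>] 0)
      (𝓝 (Real.pi ^ 2 / 4 * I)) := by
    have hc : Continuous fun ε : ℝ => Real.pi ^ 2 / 4 * (1 - 2 * ε) ^ 2 * I := by fun_prop
    have := (hc.tendsto 0).mono_left (nhdsWithin_le_nhds (s := Ioi 0))
    simpa using this
  have hle : Real.pi ^ 2 / 4 * I ≤ T := by
    refine le_of_tendsto hlim ?_
    have hev : ∀ᶠ ε : ℝ in 𝓝[>] 0, ε ∈ Ioo (0 : ℝ) (1 / 2) := Ioo_mem_nhdsGT (by norm_num)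
    filter_upwards [hev] with ε hε
    exact (coreM_scaled hΦ hΦ'c hL2 hL2' hbes hε.1 hε.2).2
  rw [← ofReal_integral_eq_lintegral_ofReal hI6 (Eventually.of_forall fun x => cubeTr_nonneg _)]
  apply ENNReal.ofReal_le_ofReal
  rw [div_mul_eq_mul_div, le_div_iff₀ hpi]
  linarith

/-- Conversion from a comparison of lower integrals to a comparison of integrals. -/
lemma int_le_of_lint {g h : ℝ → ℝ} (hgc : Continuous g) (hg0 : ∀ x, 0 ≤ g x) (hh : Integrable h)
    (hh0 : ∀ x, 0 ≤ h x) (hle : ∫⁻ x, ENNReal.ofReal (g x) ≤ ∫⁻ x, ENNReal.ofReal (h x)) :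
    Integrable g ∧ ∫ x, g x ≤ ∫ x, h x := by
  have hgi : Integrable g := by
    refine ⟨hgc.aestronglyMeasurable, ?_⟩
    rw [hasFiniteIntegral_iff_ofReal (Eventually.of_forall hg0)]
    refine lt_of_le_of_lt hle ?_
    rw [← ofReal_integral_eq_lintegral_ofReal hh (Eventually.of_forall hh0)]
    exact ENNReal.ofReal_lt_top
  refine ⟨hgi, ?_⟩
  rw [← ofReal_integral_eq_lintegral_ofReal hgi (Eventually.of_forall hg0),
    ← ofReal_integral_eq_lintegral_ofReal hh (Eventually.of_forall hh0)] at hle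
  exact (ENNReal.ofReal_le_ofReal_iff (integral_nonneg hh0)).1 hle

/-- The sharp estimate in `H¹`: box mollifier. -/
theorem coreM_H1 [CompleteSpace E] {Φ Φ' : ι → ℝ → E} (hΦc : ∀ r, Continuous (Φ r))
    (hftc : ∀ r, ∀ a b : ℝ, IntervalIntegrable (Φ' r) volume a b ∧
      ∫ t in a..b, Φ' r t = Φ r b - Φ r a)
    (hL2 : ∀ r, Integrable fun x => ‖Φ r x‖ ^ 2) (hL2' : ∀ r, Integrable fun x => ‖Φ' r x‖ ^ 2)
    (hbes : ∀ e : E, ∑ r, ∫ x, (inner ℝ e (Φ r x)) ^ 2 ≤ ‖e‖ ^ 2) :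
    ∫⁻ x, ENNReal.ofReal (cubeTr fun r => Φ r x) ≤
      ENNReal.ofReal ((4 / Real.pi ^ 2) * ∑ r, ∫ x, ‖Φ' r x‖ ^ 2) := by
  have hstep : ∀ d : ℝ, 0 < d → ∫⁻ x, ENNReal.ofReal (cubeTr fun r => boxAvg (Φ r) d x)
      ≤ ENNReal.ofReal ((4 / Real.pi ^ 2) * ∑ r, ∫ x, ‖Φ' r x‖ ^ 2) := by
    intro d hd
    have hderiv := fun r => boxAvg_hasDerivAt (hΦc r) d
    have hcΨ : ∀ r, Continuous (boxAvg (Φ r) d) := fun r =>
      continuous_iff_continuousAt.2 fun x => (hderiv r x).continuousAt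
    have hcΨ' : ∀ r, Continuous fun x => d⁻¹ • (Φ r (x + d) - Φ r x) := fun r =>
      (((hΦc r).comp (continuous_id.add continuous_const)).sub (hΦc r)).const_smul _
    have e' : ∀ r x, d⁻¹ • (Φ r (x + d) - Φ r x) = d⁻¹ • ∫ t in x..x + d, Φ' r t := by
      intro r x
      rw [(hftc r x (x + d)).2]
    have hb1 : ∀ r, ∫⁻ x, ENNReal.ofReal (‖boxAvg (Φ r) d x‖ ^ 2)
        ≤ ∫⁻ x, ENNReal.ofReal (‖Φ r x‖ ^ 2) := fun r =>
      avg_sq_lint (fun a b => (hΦc r).intervalIntegrable a b) (hL2 r) hd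
    have hb2 : ∀ r, ∫⁻ x, ENNReal.ofReal (‖d⁻¹ • (Φ r (x + d) - Φ r x)‖ ^ 2)
        ≤ ∫⁻ x, ENNReal.ofReal (‖Φ' r x‖ ^ 2) := by
      intro r
      simp_rw [e']
      exact avg_sq_lint (fun a b => (hftc r a b).1) (hL2' r) hd
    have c1 : ∀ r, Integrable (fun x => ‖boxAvg (Φ r) d x‖ ^ 2) := fun r =>
      (int_le_of_lint ((hcΨ r).norm.pow 2) (fun x => pow_nonneg (norm_nonneg _) 2) (hL2 r)
        (fun x => pow_nonneg (norm_nonneg _) 2) (hb1 r)).1
    have c2 : ∀ r, Integrable (fun x => ‖d⁻¹ • (Φ r (x + d) - Φ r x)‖ ^ 2) ∧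
        ∫ x, ‖d⁻¹ • (Φ r (x + d) - Φ r x)‖ ^ 2 ≤ ∫ x, ‖Φ' r x‖ ^ 2 := fun r =>
      int_le_of_lint ((hcΨ' r).norm.pow 2) (fun x => pow_nonneg (norm_nonneg _) 2) (hL2' r)
        (fun x => pow_nonneg (norm_nonneg _) 2) (hb2 r)
    have hbes' : ∀ e : E, ∑ r, ∫ x, (inner ℝ e (boxAvg (Φ r) d x)) ^ 2 ≤ ‖e‖ ^ 2 := by
      intro e
      refine le_trans (Finset.sum_le_sum fun r _ => ?_) (hbes e)
      have hfc : Continuous fun x => inner ℝ e (Φ r x) := continuous_const.inner (hΦc r)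
      have hsq : ∀ x, ‖inner ℝ e (Φ r x)‖ ^ 2 = (inner ℝ e (Φ r x)) ^ 2 := fun x => by
        rw [Real.norm_eq_abs, sq_abs]
      have hdom : Integrable fun x => ‖inner ℝ e (Φ r x)‖ ^ 2 := by
        refine ((hL2 r).const_mul (‖e‖ ^ 2)).mono' ((hfc.norm.pow 2).aestronglyMeasurable)
          (Eventually.of_forall fun x => ?_)
        rw [Real.norm_of_nonneg (by positivity), ← mul_pow]
        exact pow_le_pow_left₀ (norm_nonneg _) (norm_inner_le_norm (𝕜 := ℝ) e (Φ r x)) 2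
      have h2 := avg_sq_lint (fun a b => hfc.intervalIntegrable a b) hdom hd
      have e3 : ∀ x, inner ℝ e (boxAvg (Φ r) d x) = d⁻¹ • ∫ t in x..x + d, inner ℝ e (Φ r t) := by
        intro x
        rw [boxAvg, real_inner_smul_right, smul_eq_mul]
        congr 1
        exact (ContinuousLinearMap.intervalIntegral_comp_comm (innerSL ℝ e)
          ((hΦc r).intervalIntegrable _ _)).symm
      have e4 : ∀ x, (inner ℝ e (boxAvg (Φ r) d x)) ^ 2
          = ‖d⁻¹ • ∫ t in x..x + d, inner ℝ e (Φ r t)‖ ^ 2 := by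
        intro x
        rw [e3, Real.norm_eq_abs, sq_abs]
      simp_rw [← e4, hsq] at h2
      have hcont : Continuous fun x => (inner ℝ e (boxAvg (Φ r) d x)) ^ 2 :=
        (continuous_const.inner (hcΨ r)).pow 2
      exact (int_le_of_lint hcont (fun x => sq_nonneg _)
        (hdom.congr (Eventually.of_forall hsq)) (fun x => sq_nonneg _) h2).2
    have hcore := coreM_C1 hderiv hcΨ' c1 (fun r => (c2 r).1) hbes'
    refine hcore.trans (ENNReal.ofReal_le_ofReal ?_)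
    apply mul_le_mul_of_nonneg_left _ (by positivity)
    exact Finset.sum_le_sum fun r _ => (c2 r).2
  have hlim : ∀ x, Tendsto (fun k : ℕ => ENNReal.ofReal
      (cubeTr fun r => boxAvg (Φ r) (1 / ((k : ℝ) + 1)) x))
      atTop (𝓝 (ENNReal.ofReal (cubeTr fun r => Φ r x))) := by
    intro x
    apply ENNReal.tendsto_ofReal
    have hc : Continuous fun z : ι → E => cubeTr z :=
      continuous_cubeTr (Φ := fun r (z : ι → E) => z r) fun r => continuous_apply r
    exact hc.continuousAt.tendsto.comp (tendsto_pi_nhds.2 fun r => boxAvg_tendsto (hΦc r) x)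
  have hmeas : ∀ k : ℕ, Measurable fun x =>
      ENNReal.ofReal (cubeTr fun r => boxAvg (Φ r) (1 / ((k : ℝ) + 1)) x) := by
    intro k
    have hc : ∀ r, Continuous (boxAvg (Φ r) (1 / ((k : ℝ) + 1))) := fun r =>
      continuous_iff_continuousAt.2 fun x => (boxAvg_hasDerivAt (hΦc r) _ x).continuousAt
    exact (continuous_cubeTr hc).measurable.ennreal_ofReal
  calc ∫⁻ x, ENNReal.ofReal (cubeTr fun r => Φ r x)
      = ∫⁻ x, liminf (fun k : ℕ => ENNReal.ofReal
          (cubeTr fun r => boxAvg (Φ r) (1 / ((k : ℝ) + 1)) x)) atTop := by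
        refine lintegral_congr fun x => ?_
        exact (hlim x).liminf_eq.symm
    _ ≤ liminf (fun k : ℕ => ∫⁻ x, ENNReal.ofReal
          (cubeTr fun r => boxAvg (Φ r) (1 / ((k : ℝ) + 1)) x)) atTop :=
        lintegral_liminf_le hmeas
    _ ≤ _ := by
        refine Filter.liminf_le_of_frequently_le' (Frequently.of_forall fun k => ?_)
        exact hstep _ (by positivity)

end general

section rows

variable {m N : ℕ}

instance finE (N : ℕ) : FiniteDimensional ℝ (EuclideanSpace ℂ (Fin N)) :=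
  FiniteDimensional.complexToReal _

/-- The two real directions of `ℂ`. -/
noncomputable def chi (σ : Fin 2) : ℂ := if σ = 0 then 1 else Complex.I

lemma norm_chi (σ : Fin 2) : ‖chi σ‖ = 1 := by
  unfold chi
  split_ifs <;> simp

/-- The rows: for each channel `a` (in the basis `f`) and each real direction `σ`, the vector
`χ_σ (⟨f_a, z_j⟩)_j` of `ℂ^N`. -/
noncomputable def rows (f : OrthonormalBasis (Fin m) ℂ (EuclideanSpace ℂ (Fin m)))
    (z : Fin N → EuclideanSpace ℂ (Fin m)) (r : Fin m × Fin 2) : EuclideanSpace ℂ (Fin N) :=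
  chi r.2 • WithLp.toLp 2 (fun j => inner ℂ (f r.1) (z j))

/-- The combination `∑_j conj(u_j) z_j`. -/
noncomputable def zz (z : Fin N → EuclideanSpace ℂ (Fin m)) (u : EuclideanSpace ℂ (Fin N)) :
    EuclideanSpace ℂ (Fin m) := ∑ j, (starRingEnd ℂ) (u.ofLp j) • z j

lemma inner_rows (f : OrthonormalBasis (Fin m) ℂ (EuclideanSpace ℂ (Fin m)))
    (z : Fin N → EuclideanSpace ℂ (Fin m)) (u : EuclideanSpace ℂ (Fin N)) (r : Fin m × Fin 2) :
    inner ℝ u (rows f z r) = (chi r.2 * inner ℂ (f r.1) (zz z u)).re := by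
  rw [PiLp.inner_apply]
  simp only [zz, inner_sum, inner_smul_right, Finset.mul_sum, Complex.re_sum]
  refine Finset.sum_congr rfl fun j _ => ?_
  rw [Complex.inner]
  simp only [rows, PiLp.smul_apply, smul_eq_mul]
  congr 1
  ring

lemma sum_chi (A B : ℂ) :
    ∑ σ : Fin 2, (chi σ * A).re * (chi σ * B).re = ((starRingEnd ℂ) A * B).re := by
  simp [Fin.sum_univ_two, chi]

lemma bform_rows (f : OrthonormalBasis (Fin m) ℂ (EuclideanSpace ℂ (Fin m)))
    (z : Fin N → EuclideanSpace ℂ (Fin m)) (u v : EuclideanSpace ℂ (Fin N)) :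
    bform (rows f z) u v = (inner ℂ (zz z u) (zz z v)).re := by
  unfold bform
  simp only [inner_rows]
  rw [Fintype.sum_prod_type]
  simp only [sum_chi]
  rw [← f.sum_inner_mul_inner (zz z u) (zz z v), Complex.re_sum]
  refine Finset.sum_congr rfl fun a _ => ?_
  rw [inner_conj_symm]

lemma norm_rows_sq (f : OrthonormalBasis (Fin m) ℂ (EuclideanSpace ℂ (Fin m)))
    (z : Fin N → EuclideanSpace ℂ (Fin m)) (r : Fin m × Fin 2) :
    ‖rows f z r‖ ^ 2 = ∑ j, ‖inner ℂ (f r.1) (z j)‖ ^ 2 := by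
  rw [rows, norm_smul, norm_chi, one_mul, EuclideanSpace.norm_sq_eq]

lemma sum_row_sq (f : OrthonormalBasis (Fin m) ℂ (EuclideanSpace ℂ (Fin m)))
    (z : Fin N → EuclideanSpace ℂ (Fin m)) (u : EuclideanSpace ℂ (Fin N)) :
    ∑ r, (inner ℝ u (rows f z r)) ^ 2 = ‖zz z u‖ ^ 2 := by
  rw [← bform_self, bform_rows, ← inner_self_eq_norm_sq (𝕜 := ℂ)]
  rfl

/-- The pointwise inequality: Young in the eigenbasis of `W`, and `∑ S_a³ ≤ (1/2) tr X³`. -/
theorem pointwise_final (W : Matrix (Fin m) (Fin m) ℂ) (hW : W.PosSemidef)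
    (f₀ : OrthonormalBasis (Fin m) ℂ (EuclideanSpace ℂ (Fin m)))
    (z : Fin N → EuclideanSpace ℂ (Fin m)) :
    ∑ j, (star (z j).ofLp ⬝ᵥ (W *ᵥ (z j).ofLp)).re ≤
      (Real.pi ^ 2 / 8) * cubeTr (rows f₀ z) +
        (4 / (3 * Real.sqrt 3 * Real.pi)) * ∑ a, (hW.isHermitian.eigenvalues a) ^ (3 / 2 : ℝ) := by
  set f := hW.isHermitian.eigenvectorBasis with hf
  set S : Fin m → ℝ := fun a => ∑ j, ‖inner ℂ (f a) (z j)‖ ^ 2 with hS
  have hS0 : ∀ a, 0 ≤ S a := fun a => Finset.sum_nonneg fun j _ => by positivity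
  have h1 : ∑ j, (star (z j).ofLp ⬝ᵥ (W *ᵥ (z j).ofLp)).re =
      ∑ a, hW.isHermitian.eigenvalues a * S a := by
    simp only [Vale.Agent.Lib.P371.re_quadratic_eq hW.isHermitian]
    rw [Finset.sum_comm]
    simp only [hS, Finset.mul_sum]
    rfl
  have h2 : ∀ a, hW.isHermitian.eigenvalues a * S a ≤ (Real.pi ^ 2 / 4) * S a ^ 3 +
      (4 / (3 * Real.sqrt 3 * Real.pi)) * (hW.isHermitian.eigenvalues a) ^ (3 / 2 : ℝ) :=
    fun a => young_sharp (hW.eigenvalues_nonneg a) (hS0 a)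
  have h3 : 2 * ∑ a, S a ^ 3 ≤ cubeTr (rows f z) := by
    have h := sum_norm_six_le (rows f z)
    rw [Fintype.sum_prod_type] at h
    have e : ∀ a (σ : Fin 2), ‖rows f z (a, σ)‖ ^ 6 = S a ^ 3 := by
      intro a σ
      have := norm_rows_sq f z (a, σ)
      calc ‖rows f z (a, σ)‖ ^ 6 = (‖rows f z (a, σ)‖ ^ 2) ^ 3 := by ring
        _ = S a ^ 3 := by rw [this]
    simp only [e, Finset.sum_const, Finset.card_univ, Fintype.card_fin, nsmul_eq_mul] at h
    rw [← Finset.mul_sum] at h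
    exact_mod_cast h
  have h4 : cubeTr (rows f z) = cubeTr (rows f₀ z) :=
    cubeTr_congr fun u v => by rw [bform_rows, bform_rows]
  rw [h1]
  calc ∑ a, hW.isHermitian.eigenvalues a * S a
      ≤ ∑ a, ((Real.pi ^ 2 / 4) * S a ^ 3 +
          (4 / (3 * Real.sqrt 3 * Real.pi)) * (hW.isHermitian.eigenvalues a) ^ (3 / 2 : ℝ)) :=
        Finset.sum_le_sum fun a _ => h2 a
    _ = (Real.pi ^ 2 / 8) * (2 * ∑ a, S a ^ 3) +
          (4 / (3 * Real.sqrt 3 * Real.pi)) * ∑ a, (hW.isHermitian.eigenvalues a) ^ (3 / 2 : ℝ) := by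
        rw [Finset.sum_add_distrib, ← Finset.mul_sum, ← Finset.mul_sum]
        ring
    _ ≤ _ := by
        rw [← h4]
        gcongr

/-- The integral of `‖∑_j conj(e_j) ψ_j‖²` for an orthonormal family. -/
lemma integral_zz {ψ : Fin N → ℝ → EuclideanSpace ℂ (Fin m)}
    (hψ : ∀ j, MemLp (ψ j) 2 volume)
    (orth : ∀ i j, ∫ x, inner ℂ (ψ i x) (ψ j x) = if i = j then (1 : ℂ) else 0)
    (e : EuclideanSpace ℂ (Fin N)) :
    ∫ x, ‖zz (fun j => ψ j x) e‖ ^ 2 = ‖e‖ ^ 2 := by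
  have hint : ∀ i j, Integrable fun x => inner ℂ (ψ i x) (ψ j x) := by
    intro i j
    refine ((hψ i).norm.integrable_mul (hψ j).norm).mono'
      ((hψ i).1.inner (hψ j).1) (Eventually.of_forall fun x => ?_)
    exact norm_inner_le_norm _ _
  have hexp : ∀ x, ((‖zz (fun j => ψ j x) e‖ ^ 2 : ℝ) : ℂ) =
      ∑ i, ∑ j, (e.ofLp i * (starRingEnd ℂ) (e.ofLp j)) * inner ℂ (ψ i x) (ψ j x) := by
    intro x
    have hself : ∀ w : EuclideanSpace ℂ (Fin m), ((‖w‖ ^ 2 : ℝ) : ℂ) = inner ℂ w w := by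
      intro w
      rw [inner_self_eq_norm_sq_to_K]
      simp
    rw [hself]
    simp only [zz, inner_sum, sum_inner, inner_smul_left, inner_smul_right, Complex.conj_conj]
    rw [Finset.sum_comm]
    refine Finset.sum_congr rfl fun i _ => ?_
    rw [Finset.mul_sum]
    refine Finset.sum_congr rfl fun j _ => ?_
    ring
  have hc : (∫ x, ((‖zz (fun j => ψ j x) e‖ ^ 2 : ℝ) : ℂ)) = ((‖e‖ ^ 2 : ℝ) : ℂ) := by
    simp only [hexp]
    rw [integral_finsetSum _ fun i _ => integrable_finsetSum _ fun j _ => (hint i j).const_mul _]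
    simp only [integral_finsetSum _ fun j _ => (hint _ j).const_mul _, integral_const_mul, orth]
    have : ∀ i, ∑ j, (e.ofLp i * (starRingEnd ℂ) (e.ofLp j)) * (if i = j then (1 : ℂ) else 0)
        = ((‖e.ofLp i‖ ^ 2 : ℝ) : ℂ) := by
      intro i
      simp only [mul_ite, mul_one, mul_zero, Finset.sum_ite_eq, Finset.mem_univ, if_true]
      push_cast
      rw [Complex.mul_conj']
    simp only [this]
    rw [← Complex.ofReal_sum, ← EuclideanSpace.norm_sq_eq]
  have := integral_ofReal (μ := volume) (𝕜 := ℂ) (f := fun x => ‖zz (fun j => ψ j x) e‖ ^ 2)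
  have h2 : ((∫ x, ‖zz (fun j => ψ j x) e‖ ^ 2 : ℝ) : ℂ) = ((‖e‖ ^ 2 : ℝ) : ℂ) := by
    rw [← hc]
    exact this.symm
  exact_mod_cast h2

lemma ii_of_memLpE {F : Type*} [NormedAddCommGroup F] {f : ℝ → F} (hf : MemLp f 2 volume) (a b : ℝ) :
    IntervalIntegrable f volume a b := by
  rw [intervalIntegrable_iff]
  exact ((hf.locallyIntegrable (by norm_num)).integrableOn_isCompact isCompact_uIcc).mono_set
    Set.uIoc_subset_uIcc

/-- The linear pieces of a row. -/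
noncomputable def rowL (f : OrthonormalBasis (Fin m) ℂ (EuclideanSpace ℂ (Fin m)))
    (r : Fin m × Fin 2) (j : Fin N) :
    EuclideanSpace ℂ (Fin m) →L[ℂ] EuclideanSpace ℂ (Fin N) :=
  (innerSL ℂ (f r.1)).smulRight (chi r.2 • EuclideanSpace.single j (1 : ℂ))

lemma rows_eq_sum (f : OrthonormalBasis (Fin m) ℂ (EuclideanSpace ℂ (Fin m)))
    (z : Fin N → EuclideanSpace ℂ (Fin m)) (r : Fin m × Fin 2) :
    rows f z r = ∑ j, rowL f r j (z j) := by
  ext i
  simp [rows, rowL, Finset.sum_apply, Pi.single_apply, mul_comm]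

/-- The final form: `∑ⱼ ∫ ⟨ψⱼ, W ψⱼ⟩ ≤ ∑ⱼ ∫ ‖ψⱼ'‖² + (4/(3√3π)) ∫ tr W^{3/2}`. -/
theorem main_sharp_matrix {m N : ℕ} (ψ ψ' : Fin N → ℝ → EuclideanSpace ℂ (Fin m))
    (hψ : ∀ j, MemLp (ψ j) 2 volume) (hψ' : ∀ j, MemLp (ψ' j) 2 volume)
    (hftc : ∀ j, ∀ a b : ℝ, ∫ t in a..b, ψ' j t = ψ j b - ψ j a)
    (orth : ∀ i j, ∫ x, inner ℂ (ψ i x) (ψ j x) = if i = j then (1 : ℂ) else 0)
    (W : ℝ → Matrix (Fin m) (Fin m) ℂ) (hWm : ∀ a b, Measurable fun x => W x a b)
    (hW : ∀ x, (W x).PosSemidef)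
    (htr : Integrable fun x => ∑ a, ((hW x).isHermitian.eigenvalues a) ^ (3 / 2 : ℝ)) :
    (∀ j, Integrable fun x => (star (ψ j x).ofLp ⬝ᵥ (W x *ᵥ (ψ j x).ofLp)).re) ∧
    ∑ j, ∫ x, (star (ψ j x).ofLp ⬝ᵥ (W x *ᵥ (ψ j x).ofLp)).re ≤
      (∑ j, ∫ x, ‖ψ' j x‖ ^ 2) +
        (4 / (3 * Real.sqrt 3 * Real.pi)) *
          ∫ x, ∑ a, ((hW x).isHermitian.eigenvalues a) ^ (3 / 2 : ℝ) := by
  set f₀ := EuclideanSpace.basisFun (Fin m) ℂ with hf₀
  set Φ : Fin m × Fin 2 → ℝ → EuclideanSpace ℂ (Fin N) :=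
    fun r x => rows f₀ (fun j => ψ j x) r with hΦdef
  set Φ' : Fin m × Fin 2 → ℝ → EuclideanSpace ℂ (Fin N) :=
    fun r x => rows f₀ (fun j => ψ' j x) r with hΦ'def
  have hii : ∀ j a b, IntervalIntegrable (ψ' j) volume a b := fun j a b => ii_of_memLpE (hψ' j) a b
  have hcont : ∀ j, Continuous (ψ j) := by
    intro j
    have e : ψ j = fun x => ψ j 0 + ∫ t in (0 : ℝ)..x, ψ' j t := by
      ext x
      rw [hftc]
      simp
    rw [e]
    exact continuous_const.add (intervalIntegral.continuous_primitive (hii j) 0)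
  have hΦc : ∀ r, Continuous (Φ r) := by
    intro r
    simp only [hΦdef, rows_eq_sum]
    exact continuous_finsetSum _ fun j _ => (rowL f₀ r j).continuous.comp (hcont j)
  have hftcΦ : ∀ r, ∀ a b : ℝ, IntervalIntegrable (Φ' r) volume a b ∧
      ∫ t in a..b, Φ' r t = Φ r b - Φ r a := by
    intro r a b
    have hpiece : ∀ j, IntervalIntegrable (fun x => rowL f₀ r j (ψ' j x)) volume a b := fun j =>
      ⟨(rowL f₀ r j).integrable_comp (hii j a b).1, (rowL f₀ r j).integrable_comp (hii j a b).2⟩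
    have e1 : Φ' r = ∑ j, fun x => rowL f₀ r j (ψ' j x) := by
      ext1 x
      simp only [hΦ'def, rows_eq_sum, Finset.sum_apply]
    constructor
    · rw [e1]
      exact IntervalIntegrable.sum _ fun j _ => hpiece j
    · simp only [hΦ'def, hΦdef, rows_eq_sum]
      rw [intervalIntegral.integral_finsetSum fun j _ => hpiece j, ← Finset.sum_sub_distrib]
      refine Finset.sum_congr rfl fun j _ => ?_
      rw [ContinuousLinearMap.intervalIntegral_comp_comm _ (hii j a b), hftc, map_sub]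
  have hnorm : ∀ r x, ‖Φ r x‖ ^ 2 = ∑ j, ‖inner ℂ (f₀ r.1) (ψ j x)‖ ^ 2 := fun r x =>
    norm_rows_sq _ _ _
  have hnorm' : ∀ r x, ‖Φ' r x‖ ^ 2 = ∑ j, ‖inner ℂ (f₀ r.1) (ψ' j x)‖ ^ 2 := fun r x =>
    norm_rows_sq _ _ _
  have hcomp : ∀ a j, Integrable fun x => ‖inner ℂ (f₀ a) (ψ j x)‖ ^ 2 := fun a j =>
    integrable_norm_sq' ((hψ j).const_inner _)
  have hcomp' : ∀ a j, Integrable fun x => ‖inner ℂ (f₀ a) (ψ' j x)‖ ^ 2 := fun a j =>
    integrable_norm_sq' ((hψ' j).const_inner _)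
  have hL2 : ∀ r, Integrable fun x => ‖Φ r x‖ ^ 2 := by
    intro r
    simp only [hnorm]
    exact integrable_finsetSum _ fun j _ => hcomp _ j
  have hL2' : ∀ r, Integrable fun x => ‖Φ' r x‖ ^ 2 := by
    intro r
    simp only [hnorm']
    exact integrable_finsetSum _ fun j _ => hcomp' _ j
  have hbes : ∀ e : EuclideanSpace ℂ (Fin N), ∑ r, ∫ x, (inner ℝ e (Φ r x)) ^ 2 ≤ ‖e‖ ^ 2 := by
    intro e
    have hi : ∀ r, Integrable fun x => (inner ℝ e (Φ r x) : ℝ) ^ 2 := by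
      intro r
      refine ((hL2 r).const_mul (‖e‖ ^ 2)).mono'
        (((continuous_const.inner (hΦc r)).pow 2).aestronglyMeasurable)
        (Eventually.of_forall fun x => ?_)
      rw [Real.norm_of_nonneg (sq_nonneg _), ← mul_pow, ← sq_abs]
      exact pow_le_pow_left₀ (abs_nonneg _) (abs_real_inner_le_norm e (Φ r x)) 2
    rw [← integral_finsetSum _ fun r _ => hi r]
    simp only [hΦdef, sum_row_sq]
    exact (integral_zz hψ orth e).le
  have hcore := coreM_H1 hΦc hftcΦ hL2 hL2' hbes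
  have hT : ∑ r, ∫ x, ‖Φ' r x‖ ^ 2 = 2 * ∑ j, ∫ x, ‖ψ' j x‖ ^ 2 := by
    have e1 : ∀ r, ∫ x, ‖Φ' r x‖ ^ 2 = ∑ j, ∫ x, ‖inner ℂ (f₀ r.1) (ψ' j x)‖ ^ 2 := by
      intro r
      simp only [hnorm']
      exact integral_finsetSum _ fun j _ => hcomp' _ j
    simp only [e1]
    rw [Fintype.sum_prod_type]
    simp only [Finset.sum_const, Finset.card_univ, Fintype.card_fin, nsmul_eq_mul]
    push_cast
    rw [← Finset.mul_sum, Finset.sum_comm]
    congr 1
    refine Finset.sum_congr rfl fun j _ => ?_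
    rw [← integral_finsetSum _ fun a _ => hcomp' a j]
    congr 1
    ext x
    exact f₀.sum_sq_norm_inner_right _
  set Q : ℝ → ℝ := fun x => cubeTr fun r => Φ r x with hQdef
  have hQc : Continuous Q := continuous_cubeTr hΦc
  have hQ0 : ∀ x, 0 ≤ Q x := fun x => cubeTr_nonneg _
  set T := ∑ j, ∫ x, ‖ψ' j x‖ ^ 2 with hTdef
  have hT0 : 0 ≤ T := Finset.sum_nonneg fun j _ => integral_nonneg fun x => by positivity
  rw [hT] at hcore
  have hQi : Integrable Q := by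
    refine ⟨hQc.aestronglyMeasurable, ?_⟩
    rw [hasFiniteIntegral_iff_ofReal (Eventually.of_forall hQ0)]
    exact hcore.trans_lt ENNReal.ofReal_lt_top
  have hQle : (Real.pi ^ 2 / 8) * ∫ x, Q x ≤ T := by
    rw [← ofReal_integral_eq_lintegral_ofReal hQi (Eventually.of_forall hQ0)] at hcore
    have hnn : 0 ≤ (4 / Real.pi ^ 2) * (2 * T) := by positivity
    have h := (ENNReal.ofReal_le_ofReal_iff hnn).1 hcore
    have hpi : 0 < Real.pi ^ 2 := by positivity
    calc (Real.pi ^ 2 / 8) * ∫ x, Q x ≤ (Real.pi ^ 2 / 8) * ((4 / Real.pi ^ 2) * (2 * T)) :=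
          mul_le_mul_of_nonneg_left h (by positivity)
      _ = T := by
          field_simp
          ring
  set c : ℝ := 4 / (3 * Real.sqrt 3 * Real.pi) with hc
  set tr : ℝ → ℝ := fun x => ∑ a, ((hW x).isHermitian.eigenvalues a) ^ (3 / 2 : ℝ) with htrdef
  have htr0 : ∀ x, 0 ≤ tr x := fun x => Finset.sum_nonneg fun a _ =>
    Real.rpow_nonneg ((hW x).eigenvalues_nonneg a) _
  set P : Fin N → ℝ → ℝ := fun j x => (star (ψ j x).ofLp ⬝ᵥ (W x *ᵥ (ψ j x).ofLp)).re with hPdef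
  have hP0 : ∀ j x, 0 ≤ P j x := by
    intro j x
    simp only [hPdef]
    rw [Vale.Agent.Lib.P371.re_quadratic_eq (hW x).isHermitian]
    exact Finset.sum_nonneg fun a _ => mul_nonneg ((hW x).eigenvalues_nonneg a) (by positivity)
  have hPm : ∀ j, Measurable (P j) := fun j =>
    Vale.Agent.Lib.P371.measurable_re_quadratic (hcont j).stronglyMeasurable hWm
  have hyoung : ∀ x, ∑ j, P j x ≤ (Real.pi ^ 2 / 8) * Q x + c * tr x := fun x =>
    pointwise_final (W x) (hW x) f₀ (fun j => ψ j x)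
  have hdom : Integrable fun x => (Real.pi ^ 2 / 8) * Q x + c * tr x :=
    (hQi.const_mul _).add (htr.const_mul _)
  have hintj : ∀ j, Integrable (P j) := by
    intro j
    refine hdom.mono' (hPm j).aestronglyMeasurable (Eventually.of_forall fun x => ?_)
    rw [Real.norm_of_nonneg (hP0 j x)]
    exact (Finset.single_le_sum (f := fun j => P j x) (fun i _ => hP0 i x)
      (Finset.mem_univ j)).trans (hyoung x)
  refine ⟨hintj, ?_⟩
  rw [← integral_finsetSum _ fun j _ => hintj j]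
  calc ∫ x, ∑ j, P j x ≤ ∫ x, ((Real.pi ^ 2 / 8) * Q x + c * tr x) :=
        integral_mono (integrable_finsetSum _ fun j _ => hintj j) hdom hyoung
    _ = (Real.pi ^ 2 / 8) * (∫ x, Q x) + c * ∫ x, tr x := by
        rw [integral_add (hQi.const_mul _) (htr.const_mul _), integral_const_mul, integral_const_mul]
    _ ≤ T + c * ∫ x, tr x := by linarith

end rows

end Vale.Agent.Lib.P371.SharpM
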