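import Vale.Agent.Lib.P371.Sharp.Eigen
import Vale.Agent.Lib.P371.Sharp.Lyap
import Vale.Agent.Lib.P371.Sharp.LemmaM
import Vale.Agent.Lib.P371.Sharp.Trig2

/-!
# Sharp kinetic Lieb-Thirring, matrix case: the pointwise inequality

In an eigenbasis of `F` the solution `Ωₙ` of the shifted Lyapunov equation with right side
`X = ∑_r v_r v_rᵀ` has entries `X̃_jk / (f_j + f_k - 2n)`; the quadratic defect is a sum over triples
of `X̃_jk X̃_kl X̃_lj` times `DM M A B - SM M A * SM M B`, `A = f_j + f_k`, `B = f_j + f_l`.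
-/

open Matrix Finset

namespace Vale.Agent.Lib.P371.SharpM

open Vale.Agent.Lib.P371.Sharp

variable {d p : ℕ}

/-- The matrix `X = ∑_r v_r v_rᵀ`. -/
noncomputable def rowX (v : Fin p → Vec d) : Mat d := ∑ r, vecMulVec (v r) (v r)

lemma rowX_apply (v : Fin p → Vec d) (i j : Fin d) : rowX v i j = ∑ r, v r i * v r j := by
  simp [rowX, Matrix.sum_apply, vecMulVec_apply]

lemma rowX_symm (v : Fin p → Vec d) : (rowX v).IsSymm :=
  Matrix.IsSymm.ext fun i j => by
    rw [rowX_apply, rowX_apply]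
    exact Finset.sum_congr rfl fun r _ => mul_comm _ _

/-- `∑_r (∑_k β_k z_r(k))² = ∑_k ∑_l β_k β_l X_kl`. -/
lemma sum_sq_linear (z : Fin p → Vec d) (β : Fin d → ℝ) :
    ∑ r, (∑ k, β k * z r k) ^ 2 = ∑ k, ∑ l, β k * β l * rowX z k l := by
  calc ∑ r, (∑ k, β k * z r k) ^ 2 = ∑ r, ∑ k, ∑ l, β k * β l * (z r k * z r l) := by
        refine Finset.sum_congr rfl fun r _ => ?_
        rw [sq, Finset.sum_mul_sum]
        refine Finset.sum_congr rfl fun k _ => Finset.sum_congr rfl fun l _ => by ring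
    _ = ∑ k, ∑ r, ∑ l, β k * β l * (z r k * z r l) := Finset.sum_comm
    _ = ∑ k, ∑ l, ∑ r, β k * β l * (z r k * z r l) :=
        Finset.sum_congr rfl fun k _ => Finset.sum_comm
    _ = _ := by
        refine Finset.sum_congr rfl fun k _ => Finset.sum_congr rfl fun l _ => ?_
        rw [rowX_apply, Finset.mul_sum]

/-- The Gram kernel of a family is positive semidefinite. -/
lemma rowX_psdk (v : Fin p → Vec d) : PSDK (fun i j => rowX v i j) := by
  refine ⟨fun i j => (rowX_symm v).apply j i, fun c => ?_⟩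
  rw [← sum_sq_linear]
  exact Finset.sum_nonneg fun r _ => sq_nonneg _

/-- Conjugation by an orthogonal matrix acts on the rows. -/
lemma conj_rowX (Q : Mat d) (v : Fin p → Vec d) :
    Qᵀ * rowX v * Q = rowX fun r => Qᵀ *ᵥ v r := by
  unfold rowX
  rw [Finset.mul_sum, Finset.sum_mul]
  refine Finset.sum_congr rfl fun r _ => ?_
  rw [Matrix.mul_vecMulVec, Matrix.vecMulVec_mul, ← Matrix.mulVec_transpose]

section conj

variable {F Q : Mat d} {f : Fin d → ℝ}

/-- The entries of any solution in the eigenbasis. -/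
theorem lyap_entryM (h1 : Qᵀ * Q = 1) (h2 : Q * Qᵀ = 1)
    (h3 : F = Q * diagonal f * Qᵀ) (n : ℤ) {X Ω : Mat d}
    (hΩ : lyap F n Ω = X) (j k : Fin d) :
    (f j + f k - 2 * (n : ℝ)) * (Qᵀ * Ω * Q) j k = (Qᵀ * X * Q) j k := by
  have hG := shift_eq h2 h3 n
  set D : Mat d := diagonal (fun j => f j - (n : ℝ)) with hD
  have hconj : Qᵀ * (lyap F n Ω) * Q = D * (Qᵀ * Ω * Q) + (Qᵀ * Ω * Q) * D := by
    unfold lyap
    rw [hG, Matrix.mul_add, Matrix.add_mul]
    congr 1
    · calc Qᵀ * (Q * D * Qᵀ * Ω) * Q = (Qᵀ * Q) * D * (Qᵀ * Ω * Q) := by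
            simp only [Matrix.mul_assoc]
        _ = _ := by rw [h1, Matrix.one_mul]
    · calc Qᵀ * (Ω * (Q * D * Qᵀ)) * Q = (Qᵀ * Ω * Q) * D * (Qᵀ * Q) := by
            simp only [Matrix.mul_assoc]
        _ = _ := by rw [h1, Matrix.mul_one]
  rw [hΩ] at hconj
  have := congrFun (congrFun hconj j) k
  simp only [Matrix.add_apply, hD, Matrix.diagonal_mul, Matrix.mul_diagonal] at this
  rw [this]
  ring

end conj

/-- The entries of `rowX` are bounded by the trace. -/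
lemma abs_rowX_le (z : Fin p → Vec d) (j k : Fin d) :
    |rowX z j k| ≤ ∑ r, z r ⬝ᵥ z r := by
  rw [rowX_apply]
  refine (Finset.abs_sum_le_sum_abs _ _).trans (Finset.sum_le_sum fun r _ => ?_)
  have hj : z r j ^ 2 ≤ z r ⬝ᵥ z r := by
    simp only [dotProduct, ← sq]
    exact Finset.single_le_sum (f := fun i => z r i ^ 2) (fun i _ => sq_nonneg _) (Finset.mem_univ j)
  have hk : z r k ^ 2 ≤ z r ⬝ᵥ z r := by
    simp only [dotProduct, ← sq]
    exact Finset.single_le_sum (f := fun i => z r i ^ 2) (fun i _ => sq_nonneg _) (Finset.mem_univ k)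
  rw [abs_mul]
  nlinarith [sq_nonneg (|z r j| - |z r k|), sq_abs (z r j), sq_abs (z r k)]

/-- The expansion of the defect in the eigenbasis. -/
theorem defect_eq {ε : ℝ} {F Q : Mat d} {f : Fin d → ℝ} (hQ : QBound ε F) (hε : 0 < ε) (M : ℕ)
    (h1 : Qᵀ * Q = 1) (h2 : Q * Qᵀ = 1) (h3 : F = Q * diagonal f * Qᵀ)
    (hf : ∀ j, ε ≤ f j ∧ f j ≤ 1 - ε) (v : Fin p → Vec d) :
    let W := Finset.Icc (-(M : ℤ)) (M : ℤ)
    let a : ℤ → Fin p → Vec d := fun n r => sol F n (rowX v) *ᵥ v r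
    let z : Fin p → Vec d := fun r => Qᵀ *ᵥ v r
    (∑ n ∈ W, ∑ r, a n r ⬝ᵥ a n r) - ∑ r, (∑ n ∈ W, a n r) ⬝ᵥ (∑ n ∈ W, a n r) =
      ∑ j, ∑ k, ∑ l, rowX z j k * rowX z k l * rowX z l j *
        (DM M (f j + f k) (f j + f l) - SM M (f j + f k) * SM M (f j + f l)) := by
  intro W a z
  set XT : Mat d := rowX z with hXT
  have hconjX : Qᵀ * rowX v * Q = XT := conj_rowX Q v
  have hsymm : ∀ j k, XT j k = XT k j := fun j k => (rowX_symm z).apply k j
  set c : ℤ → Fin d → Fin d → ℝ := fun n j k => 1 / (f j + f k - 2 * (n : ℝ)) with hc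
  have hdot : ∀ u w : Vec d, (Qᵀ *ᵥ u) ⬝ᵥ (Qᵀ *ᵥ w) = u ⬝ᵥ w := dot_transpose h2
  -- coordinates of `a n r`
  have hcoord : ∀ (n : ℤ) (r : Fin p) (j : Fin d),
      (Qᵀ *ᵥ a n r) j = ∑ k, (XT j k * c n j k) * z r k := by
    intro n r j
    have hspec : lyap F n (sol F n (rowX v)) = rowX v := sol_spec hQ hε n (rowX v)
    set Ω := sol F n (rowX v) with hΩ
    have hent := lyap_entryM h1 h2 h3 n hspec
    have e : Qᵀ *ᵥ a n r = (Qᵀ * Ω * Q) *ᵥ z r := by
      simp only [a, z, Matrix.mulVec_mulVec]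
      rw [Matrix.mul_assoc (Qᵀ * Ω), h2, Matrix.mul_one]
    rw [e]
    simp only [Matrix.mulVec, dotProduct]
    refine Finset.sum_congr rfl fun k _ => ?_
    have hne := denom_ne hε hf j k n
    have e2 : (Qᵀ * Ω * Q) j k = XT j k * c n j k := by
      have := hent j k
      rw [hconjX] at this
      simp only [hc]
      field_simp
      try linarith
    rw [e2]
  -- coordinates of the sum
  have hcoords : ∀ (r : Fin p) (j : Fin d),
      (Qᵀ *ᵥ ∑ n ∈ W, a n r) j = ∑ k, (XT j k * SM M (f j + f k)) * z r k := by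
    intro r j
    rw [Matrix.mulVec_sum, Finset.sum_apply]
    simp only [hcoord]
    rw [Finset.sum_comm]
    refine Finset.sum_congr rfl fun k _ => ?_
    simp only [SM, hc, Finset.mul_sum, Finset.sum_mul, W]
  have hterm : ∀ n : ℤ, ∑ r, a n r ⬝ᵥ a n r =
      ∑ j, ∑ k, ∑ l, (XT j k * c n j k) * (XT j l * c n j l) * XT k l := by
    intro n
    have : ∀ r, a n r ⬝ᵥ a n r = ∑ j, (∑ k, (XT j k * c n j k) * z r k) ^ 2 := by
      intro r
      rw [← hdot (a n r) (a n r)]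
      simp only [dotProduct, hcoord, sq]
    simp only [this]
    rw [Finset.sum_comm]
    refine Finset.sum_congr rfl fun j _ => ?_
    exact sum_sq_linear z _
  have hsterm : ∑ r, (∑ n ∈ W, a n r) ⬝ᵥ (∑ n ∈ W, a n r) =
      ∑ j, ∑ k, ∑ l, (XT j k * SM M (f j + f k)) * (XT j l * SM M (f j + f l)) * XT k l := by
    have : ∀ r, (∑ n ∈ W, a n r) ⬝ᵥ (∑ n ∈ W, a n r) =
        ∑ j, (∑ k, (XT j k * SM M (f j + f k)) * z r k) ^ 2 := by
      intro r
      rw [← hdot (∑ n ∈ W, a n r) (∑ n ∈ W, a n r)]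
      simp only [dotProduct, hcoords, sq]
    simp only [this]
    rw [Finset.sum_comm]
    refine Finset.sum_congr rfl fun j _ => ?_
    exact sum_sq_linear z _
  have hnsum : ∑ n ∈ W, ∑ r, a n r ⬝ᵥ a n r =
      ∑ j, ∑ k, ∑ l, XT j k * XT k l * XT l j * DM M (f j + f k) (f j + f l) := by
    simp only [hterm]
    rw [Finset.sum_comm]
    refine Finset.sum_congr rfl fun j _ => ?_
    rw [Finset.sum_comm]
    refine Finset.sum_congr rfl fun k _ => ?_
    rw [Finset.sum_comm]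
    refine Finset.sum_congr rfl fun l _ => ?_
    simp only [DM, W, Finset.mul_sum]
    refine Finset.sum_congr rfl fun n _ => ?_
    simp only [hc, hsymm l j]
    rw [one_div, one_div, one_div, mul_inv]
    ring
  rw [hnsum, hsterm, ← Finset.sum_sub_distrib]
  refine Finset.sum_congr rfl fun j _ => ?_
  rw [← Finset.sum_sub_distrib]
  refine Finset.sum_congr rfl fun k _ => ?_
  rw [← Finset.sum_sub_distrib]
  refine Finset.sum_congr rfl fun l _ => ?_
  rw [hsymm l j]
  ring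

/-- The trace of the cube in the eigenbasis. -/
lemma trace_cube_eq {Q : Mat d} (h1 : Qᵀ * Q = 1) (h2 : Q * Qᵀ = 1) (v : Fin p → Vec d) :
    (rowX v * rowX v * rowX v).trace = ∑ j, ∑ k, ∑ l,
      rowX (fun r => Qᵀ *ᵥ v r) j k * rowX (fun r => Qᵀ *ᵥ v r) k l *
        rowX (fun r => Qᵀ *ᵥ v r) l j := by
  set XT : Mat d := rowX fun r => Qᵀ *ᵥ v r with hXT
  have hconj : Qᵀ * rowX v * Q = XT := conj_rowX Q v
  have hX : rowX v = Q * XT * Qᵀ := by
    rw [← hconj]
    calc rowX v = (Q * Qᵀ) * rowX v * (Q * Qᵀ) := by rw [h2, Matrix.one_mul, Matrix.mul_one]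
      _ = _ := by simp only [Matrix.mul_assoc]
  have e : rowX v * rowX v * rowX v = Q * (XT * XT * XT) * Qᵀ := by
    rw [hX]
    calc Q * XT * Qᵀ * (Q * XT * Qᵀ) * (Q * XT * Qᵀ)
        = Q * XT * (Qᵀ * Q) * XT * (Qᵀ * Q) * XT * Qᵀ := by simp only [Matrix.mul_assoc]
      _ = _ := by rw [h1, Matrix.mul_one, Matrix.mul_one]; simp only [Matrix.mul_assoc]
  rw [e, Matrix.trace_mul_comm, ← Matrix.mul_assoc, h1, Matrix.one_mul]
  simp only [Matrix.trace, Matrix.diag_apply, Matrix.mul_apply, Finset.sum_mul]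
  refine Finset.sum_congr rfl fun j _ => ?_
  rw [Finset.sum_comm]

/-- The pointwise inequality for general `X = ∑ v_r v_rᵀ`. -/
theorem lyap_ineqM {ε δ : ℝ} {F : Mat d} (hQ : QBound ε F) (hε : 0 < ε) (hδ : 0 ≤ δ) (M : ℕ)
    (hM : ∀ A B : ℝ, 2 * ε ≤ A → A ≤ 2 - 2 * ε → 2 * ε ≤ B → B ≤ 2 - 2 * ε →
      |DM M A B - SM M A * SM M B - Real.pi ^ 2 / 4 *
        (1 + (Real.sinc (Real.pi * (A - B) / 2) - Real.cos (Real.pi * (A - B) / 2)) /
          (Real.sin (Real.pi * A / 2) * Real.sin (Real.pi * B / 2)))| ≤ δ)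
    (v : Fin p → Vec d) :
    let W := Finset.Icc (-(M : ℤ)) (M : ℤ)
    let a : ℤ → Fin p → Vec d := fun n r => sol F n (rowX v) *ᵥ v r
    Real.pi ^ 2 / 4 * (rowX v * rowX v * rowX v).trace - δ * d ^ 3 * (∑ r, v r ⬝ᵥ v r) ^ 3 ≤
      (∑ n ∈ W, ∑ r, a n r ⬝ᵥ a n r) - ∑ r, (∑ n ∈ W, a n r) ⬝ᵥ (∑ n ∈ W, a n r) := by
  intro W a
  obtain ⟨Q, f, h1, h2, h3, hf⟩ := eigen_data hQ
  have hdef := defect_eq hQ hε M h1 h2 h3 hf v
  simp only at hdef
  rw [hdef, trace_cube_eq h1 h2 v]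
  set z : Fin p → Vec d := fun r => Qᵀ *ᵥ v r with hz
  set XT : Mat d := rowX z with hXT
  have hpi := Real.pi_pos
  set α : Fin d → ℝ := fun j => Real.pi * f j / 2 with hα
  have hαb : ∀ i, 0 < α i ∧ α i < Real.pi / 2 := by
    intro i
    have h4 := hf i
    have h5 : 0 < f i := by linarith [h4.1]
    have h6 : f i < 1 := by linarith [h4.2]
    constructor
    · positivity
    · simp only [hα]
      nlinarith
  have hpos := lemmaM α hαb (fun i j => XT i j) (rowX_psdk z)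
  -- the pointwise bound on triples
  have htrip : ∀ j k l, Real.pi ^ 2 / 4 * (XT j k * XT k l * XT l j)
      + Real.pi ^ 2 / 4 * (XT j k * XT k l * XT l j *
        ((Real.sinc (α k - α l) - Real.cos (α k - α l)) /
          (Real.sin (α j + α k) * Real.sin (α j + α l))))
      - δ * (∑ r, z r ⬝ᵥ z r) ^ 3
      ≤ XT j k * XT k l * XT l j *
        (DM M (f j + f k) (f j + f l) - SM M (f j + f k) * SM M (f j + f l)) := by
    intro j k l
    have hA : ∀ k, 2 * ε ≤ f j + f k ∧ f j + f k ≤ 2 - 2 * ε := by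
      intro k
      have h4 := hf j
      have h5 := hf k
      constructor <;> linarith [h4.1, h4.2, h5.1, h5.2]
    have hb := hM (f j + f k) (f j + f l) (hA k).1 (hA k).2 (hA l).1 (hA l).2
    have e1 : Real.pi * (f j + f k - (f j + f l)) / 2 = α k - α l := by
      simp only [hα]; ring
    have e2 : Real.pi * (f j + f k) / 2 = α j + α k := by
      simp only [hα]; ring
    have e3 : Real.pi * (f j + f l) / 2 = α j + α l := by
      simp only [hα]; ring
    rw [e1, e2, e3] at hb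
    set E := DM M (f j + f k) (f j + f l) - SM M (f j + f k) * SM M (f j + f l) -
      Real.pi ^ 2 / 4 * (1 + (Real.sinc (α k - α l) - Real.cos (α k - α l)) /
        (Real.sin (α j + α k) * Real.sin (α j + α l))) with hE
    set Wk := (Real.sinc (α k - α l) - Real.cos (α k - α l)) /
        (Real.sin (α j + α k) * Real.sin (α j + α l)) with hWk
    set T := XT j k * XT k l * XT l j with hT
    have hD : DM M (f j + f k) (f j + f l) - SM M (f j + f k) * SM M (f j + f l)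
        = Real.pi ^ 2 / 4 * (1 + Wk) + E := by
      rw [hE]; ring
    rw [hD]
    have hTabs : |T| ≤ (∑ r, z r ⬝ᵥ z r) ^ 3 := by
      have h0 : 0 ≤ ∑ r, z r ⬝ᵥ z r :=
        Finset.sum_nonneg fun r _ => Finset.sum_nonneg fun i _ => mul_self_nonneg _
      rw [hT, abs_mul, abs_mul]
      have h6 := abs_rowX_le z j k
      have h7 := abs_rowX_le z k l
      have h8 := abs_rowX_le z l j
      calc |XT j k| * |XT k l| * |XT l j| ≤
            (∑ r, z r ⬝ᵥ z r) * (∑ r, z r ⬝ᵥ z r) * (∑ r, z r ⬝ᵥ z r) := by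
              gcongr
        _ = _ := by ring
    have hTE : -(δ * |T|) ≤ T * E := by
      have h6 : |T * E| ≤ |T| * δ := by
        rw [abs_mul]
        exact mul_le_mul_of_nonneg_left hb (abs_nonneg _)
      have h7 := neg_abs_le (T * E)
      nlinarith
    have h8 : δ * |T| ≤ δ * (∑ r, z r ⬝ᵥ z r) ^ 3 := mul_le_mul_of_nonneg_left hTabs hδ
    have h9 : T * (Real.pi ^ 2 / 4 * (1 + Wk) + E) =
        Real.pi ^ 2 / 4 * T + Real.pi ^ 2 / 4 * (T * Wk) + T * E := by ring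
    rw [h9]
    linarith
  have htrace : ∑ r, z r ⬝ᵥ z r = ∑ r, v r ⬝ᵥ v r :=
    Finset.sum_congr rfl fun r _ => dot_transpose h2 (v r) (v r)
  rw [← htrace]
  set B := (∑ r, z r ⬝ᵥ z r) ^ 3 with hB
  have hsum : ∑ j : Fin d, ∑ k : Fin d, ∑ l : Fin d, (Real.pi ^ 2 / 4 * (XT j k * XT k l * XT l j)
      + Real.pi ^ 2 / 4 * (XT j k * XT k l * XT l j *
        ((Real.sinc (α k - α l) - Real.cos (α k - α l)) /
          (Real.sin (α j + α k) * Real.sin (α j + α l))))
      - δ * B)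
      ≤ ∑ j, ∑ k, ∑ l, XT j k * XT k l * XT l j *
        (DM M (f j + f k) (f j + f l) - SM M (f j + f k) * SM M (f j + f l)) :=
    Finset.sum_le_sum fun j _ => Finset.sum_le_sum fun k _ => Finset.sum_le_sum fun l _ =>
      htrip j k l
  refine le_trans ?_ hsum
  simp only [Finset.sum_sub_distrib, Finset.sum_add_distrib, ← Finset.mul_sum, Finset.sum_const,
    Finset.card_univ, Fintype.card_fin, nsmul_eq_mul]
  have h10 := mul_nonneg (by positivity : 0 ≤ Real.pi ^ 2 / 4) hpos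
  have e4 : (d : ℝ) * ((d : ℝ) * ((d : ℝ) * (δ * B))) = δ * (d : ℝ) ^ 3 * B := by ring
  linarith

end Vale.Agent.Lib.P371.SharpM
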