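import Vale.Agent.Lib.P371.Sharp.Path
import Vale.Agent.Lib.P371.SharpM.EigenM

/-!
# Sharp kinetic Lieb-Thirring, matrix case: derivative of the calibrator term along the path.
-/

open Matrix Filter Topology

namespace Vale.Agent.Lib.P371.SharpM

open Vale.Agent.Lib.P371.Sharp

variable {d p : ℕ}

private lemma hasDerivAt_hs_const_left (A : Mat d) {M : ℝ → Mat d} {M' : Mat d} {x : ℝ}
    (h : ∀ i j, HasDerivAt (fun y => M y i j) (M' i j) x) :
    HasDerivAt (fun y => hs A (M y)) (hs A M') x := by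
  unfold hs
  exact HasDerivAt.fun_sum fun i _ => HasDerivAt.fun_sum fun j _ => (h i j).const_mul (A i j)

private lemma hasDerivAt_hs_self {M : ℝ → Mat d} {M' : Mat d} {x : ℝ}
    (h : ∀ i j, HasDerivAt (fun y => M y i j) (M' i j) x) (h0 : M x = 0) :
    HasDerivAt (fun y => hs (M y) (M y)) 0 x := by
  unfold hs
  have h1 : HasDerivAt (fun y => ∑ i, ∑ j, M y i j * M y i j)
      (∑ i, ∑ j, (M' i j * M x i j + M x i j * M' i j)) x :=
    HasDerivAt.fun_sum fun i _ => HasDerivAt.fun_sum fun j _ => (h i j).mul (h i j)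
  have h2 : (∑ i, ∑ j, (M' i j * M x i j + M x i j * M' i j)) = 0 := by
    simp [h0]
  rwa [h2] at h1

private lemma hasDerivAt_zero_of_abs_le {r h : ℝ → ℝ} {x C : ℝ} (hr : r x = 0) (hh0 : h x = 0)
    (hh : HasDerivAt h 0 x) (hle : ∀ y, |r y| ≤ C * |h y|) : HasDerivAt r 0 x := by
  rw [hasDerivAt_iff_isLittleO] at hh ⊢
  have h1 : (fun y => r y - r x - (y - x) • (0 : ℝ)) =O[𝓝 x]
      fun y => h y - h x - (y - x) • (0 : ℝ) := by
    refine Asymptotics.IsBigO.of_bound C (Eventually.of_forall fun y => ?_)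
    simpa [hr, hh0, Real.norm_eq_abs] using hle y
  exact h1.trans_isLittleO hh

/-- `hs Ω X = ∑_r v_r·Ω v_r`. -/
lemma hs_rowX (Ω : Mat d) (v : Fin p → Vec d) :
    hs Ω (rowX v) = ∑ r, v r ⬝ᵥ (Ω *ᵥ v r) := by
  have e : ∀ (q : Finset (Fin p)),
      hs Ω (∑ r ∈ q, vecMulVec (v r) (v r)) = ∑ r ∈ q, v r ⬝ᵥ (Ω *ᵥ v r) := by
    intro q
    induction q using Finset.induction_on with
    | empty => simp [hs_zero_right]
    | insert a q ha ih =>
      rw [Finset.sum_insert ha, Finset.sum_insert ha, hs_add_right, ih, hs_vecMulVec]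
  exact e Finset.univ

/-- `hs Ω (rowX v * Ω + Ω * rowX v) = 2 ∑_r |Ω v_r|²` for symmetric `Ω`. -/
lemma hs_rowX_anti {Ω : Mat d} (hΩ : Ω.IsSymm) (v : Fin p → Vec d) :
    hs Ω (rowX v * Ω + Ω * rowX v) = 2 * ∑ r, (Ω *ᵥ v r) ⬝ᵥ (Ω *ᵥ v r) := by
  have hvm : ∀ u : Vec d, u ᵥ* Ω = Ω *ᵥ u := fun u => by
    rw [← Matrix.mulVec_transpose, hΩ]
  have e3 : rowX v * Ω = ∑ r, vecMulVec (v r) (Ω *ᵥ v r) := by
    unfold rowX
    rw [Finset.sum_mul]
    refine Finset.sum_congr rfl fun r _ => ?_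
    rw [Matrix.vecMulVec_mul, hvm]
  have e4 : Ω * rowX v = ∑ r, vecMulVec (Ω *ᵥ v r) (v r) := by
    unfold rowX
    rw [Finset.mul_sum]
    refine Finset.sum_congr rfl fun r _ => ?_
    rw [Matrix.mul_vecMulVec]
  have hsum : ∀ (q : Finset (Fin p)) (g : Fin p → Mat d),
      hs Ω (∑ r ∈ q, g r) = ∑ r ∈ q, hs Ω (g r) := by
    intro q g
    induction q using Finset.induction_on with
    | empty => simp [hs_zero_right]
    | insert a q ha ih =>
      rw [Finset.sum_insert ha, Finset.sum_insert ha, hs_add_right, ih]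
  rw [hs_add_right, e3, e4, hsum, hsum, ← Finset.sum_add_distrib, Finset.mul_sum]
  refine Finset.sum_congr rfl fun r _ => ?_
  rw [hs_vecMulVec, hs_vecMulVec, dot_symm_swap hΩ (v r) (Ω *ᵥ v r)]
  ring

/-- The derivative along the path, `F' = ∑ ξ_r ξ_rᵀ`. -/
theorem hasDerivAt_bM {ε : ℝ} (hε : 0 < ε) (n : ℤ) {ξ ξ' : ℝ → Fin p → Vec d}
    (hξ : ∀ x r i, HasDerivAt (fun y => ξ y r i) (ξ' x r i) x) {F : ℝ → Mat d}
    (hF : ∀ x i j, HasDerivAt (fun y => F y i j) (rowX (ξ x) i j) x)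
    (hQ : ∀ x, QBound ε (F x)) (x : ℝ) :
    HasDerivAt (fun y => (1 / 2 : ℝ) * ∑ r, (ξ y r ⬝ᵥ (sol (F y) n (rowX (ξ y)) *ᵥ ξ y r)))
      (∑ r, (2 * (ξ' x r ⬝ᵥ (sol (F x) n (rowX (ξ x)) *ᵥ ξ x r))
        - (sol (F x) n (rowX (ξ x)) *ᵥ ξ x r) ⬝ᵥ (sol (F x) n (rowX (ξ x)) *ᵥ ξ x r))) x := by
  set X : ℝ → Mat d := fun y => rowX (ξ y) with hXdef
  set Ω : ℝ → Mat d := fun y => sol (F y) n (X y) with hΩdef
  have hspec : ∀ y, lyap (F y) n (Ω y) = X y := fun y => sol_spec (hQ y) hε n (X y)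
  have hXsymm : (X x).IsSymm := rowX_symm (ξ x)
  have hΩsymm : (Ω x).IsSymm := sol_symm (hQ x) hε n hXsymm
  -- the derivative pieces
  set X' : Mat d := ∑ r, (vecMulVec (ξ' x r) (ξ x r) + vecMulVec (ξ x r) (ξ' x r)) with hX'
  set S' : Mat d := X x * Ω x + Ω x * X x with hS'
  have hXd : ∀ i j, HasDerivAt (fun y => X y i j) (X' i j) x := by
    intro i j
    simp only [hXdef, rowX_apply, hX', Matrix.sum_apply, Matrix.add_apply, vecMulVec_apply]
    exact HasDerivAt.fun_sum fun r _ => (hξ x r i).fun_mul (hξ x r j)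
  have hEd : ∀ i k, HasDerivAt (fun y => (F y - F x) i k) (X x i k) x := by
    intro i k
    simpa [hXdef, Matrix.sub_apply] using (hF x i k).sub_const (F x i k)
  set S : ℝ → Mat d := fun y => (F y - F x) * Ω x + Ω x * (F y - F x) with hSdef
  have hSd : ∀ i j, HasDerivAt (fun y => S y i j) (S' i j) x := by
    intro i j
    simp only [hSdef, hS', Matrix.add_apply, Matrix.mul_apply]
    exact (HasDerivAt.fun_sum fun k _ => (hEd i k).mul_const (Ω x k j)).add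
      (HasDerivAt.fun_sum fun k _ => (hEd k j).const_mul (Ω x i k))
  set R : ℝ → Mat d := fun y => X y - X x - S y with hRdef
  have hRd : ∀ i j, HasDerivAt (fun y => R y i j) ((X' - S') i j) x := by
    intro i j
    simp only [hRdef, Matrix.sub_apply]
    exact ((hXd i j).sub_const (X x i j)).sub (hSd i j)
  have hRx : R x = 0 := by
    simp [hRdef, hSdef]
  -- the identity for every y
  have hid : ∀ y, (1 / 2 : ℝ) * hs (Ω y) (X y) = (1 / 2 : ℝ) * hs (Ω x) (X x)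
      + (hs (Ω x) (X y) - hs (Ω x) (X x)) - (1 / 2 : ℝ) * hs (Ω x) (S y)
      + (1 / 2 : ℝ) * hs (Ω y - Ω x) (R y) := fun y => (b_identity (hQ y) (hspec x) (hspec y)).2
  have hLD : ∀ y, lyap (F y) n (Ω y - Ω x) = R y := fun y =>
    (b_identity (hQ y) (hspec x) (hspec y)).1
  -- the remainder has zero derivative
  have hrem : HasDerivAt (fun y => (1 / 2 : ℝ) * hs (Ω y - Ω x) (R y)) 0 x := by
    refine hasDerivAt_zero_of_abs_le (h := fun y => hs (R y) (R y)) (C := 1 / (4 * ε)) ?_ ?_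
      (hasDerivAt_hs_self hRd hRx) ?_
    · simp [hRx, hs_zero_right]
    · simp [hRx, hs_zero_right]
    · intro y
      have h1 := abs_hs_rem_le (hQ y) hε (hLD y)
      rw [abs_of_nonneg (hs_self_nonneg (R y)), abs_mul, abs_of_pos (by norm_num : (0:ℝ) < 1 / 2)]
      calc (1 / 2 : ℝ) * |hs (Ω y - Ω x) (R y)| ≤ (1 / 2 : ℝ) * (hs (R y) (R y) / (2 * ε)) :=
            mul_le_mul_of_nonneg_left h1 (by norm_num)
        _ = 1 / (4 * ε) * hs (R y) (R y) := by field_simp; ring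
  -- assemble
  have hmain : HasDerivAt (fun y => (1 / 2 : ℝ) * hs (Ω x) (X x)
      + (hs (Ω x) (X y) - hs (Ω x) (X x)) - (1 / 2 : ℝ) * hs (Ω x) (S y)
      + (1 / 2 : ℝ) * hs (Ω y - Ω x) (R y))
      (hs (Ω x) X' - (1 / 2 : ℝ) * hs (Ω x) S' + 0) x := by
    have h1 := hasDerivAt_hs_const_left (Ω x) hXd
    have h2 := hasDerivAt_hs_const_left (Ω x) hSd
    have h3 := (((h1.sub_const (hs (Ω x) (X x))).const_add ((1 / 2 : ℝ) * hs (Ω x) (X x))).sub
      (h2.const_mul (1 / 2 : ℝ))).add hrem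
    exact h3
  have hval : hs (Ω x) X' - (1 / 2 : ℝ) * hs (Ω x) S' + 0 =
      ∑ r, (2 * (ξ' x r ⬝ᵥ (Ω x *ᵥ ξ x r)) - (Ω x *ᵥ ξ x r) ⬝ᵥ (Ω x *ᵥ ξ x r)) := by
    have e1 : hs (Ω x) X' = ∑ r, 2 * (ξ' x r ⬝ᵥ (Ω x *ᵥ ξ x r)) := by
      have hsum : ∀ (q : Finset (Fin p)) (g : Fin p → Mat d),
          hs (Ω x) (∑ r ∈ q, g r) = ∑ r ∈ q, hs (Ω x) (g r) := by
        intro q g
        induction q using Finset.induction_on with
        | empty => simp [hs_zero_right]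
        | insert a q ha ih =>
          rw [Finset.sum_insert ha, Finset.sum_insert ha, hs_add_right, ih]
      rw [hX', hsum]
      refine Finset.sum_congr rfl fun r _ => ?_
      rw [hs_add_right, hs_vecMulVec, hs_vecMulVec, dot_symm_swap hΩsymm (ξ x r) (ξ' x r)]
      ring
    have e2 : hs (Ω x) S' = 2 * ∑ r, (Ω x *ᵥ ξ x r) ⬝ᵥ (Ω x *ᵥ ξ x r) := hs_rowX_anti hΩsymm (ξ x)
    rw [e1, e2, Finset.sum_sub_distrib]
    ring
  rw [hval] at hmain
  refine hmain.congr_of_eventuallyEq (Eventually.of_forall fun y => ?_)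
  simp only
  rw [← hs_rowX]
  exact hid y

/-- Continuity of `rowX` along a path. -/
lemma continuous_rowX {ξ : ℝ → Fin p → Vec d} (hξ : Continuous ξ) :
    Continuous fun x => rowX (ξ x) := by
  unfold rowX
  refine continuous_finsetSum _ fun r _ => ?_
  have h : Continuous fun x => ξ x r := (continuous_apply r).comp hξ
  exact h.matrix_vecMulVec h

/-- Continuity of the solution along the path. -/
theorem continuous_solM {ε : ℝ} (hε : 0 < ε) (n : ℤ) {ξ : ℝ → Fin p → Vec d} (hξ : Continuous ξ)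
    {F : ℝ → Mat d} (hFc : Continuous F) (hQ : ∀ x, QBound ε (F x)) :
    Continuous fun x => sol (F x) n (rowX (ξ x)) := by
  set X : ℝ → Mat d := fun y => rowX (ξ y) with hXdef
  set Ω : ℝ → Mat d := fun y => sol (F y) n (X y) with hΩdef
  have hspec : ∀ y, lyap (F y) n (Ω y) = X y := fun y => sol_spec (hQ y) hε n (X y)
  have hXc : Continuous X := continuous_rowX hξ
  rw [continuous_iff_continuousAt]
  intro x
  have hLD : ∀ y, lyap (F y) n (Ω y - Ω x) =
      X y - X x - ((F y - F x) * Ω x + Ω x * (F y - F x)) := fun y =>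
    (b_identity (hQ y) (hspec x) (hspec y)).1
  set R : ℝ → Mat d := fun y => X y - X x - ((F y - F x) * Ω x + Ω x * (F y - F x)) with hRdef
  have hRc : Continuous R := by
    have h1 : Continuous fun y => F y - F x := hFc.sub continuous_const
    exact (hXc.sub continuous_const).sub
      ((h1.matrix_mul continuous_const).add (continuous_const.matrix_mul h1))
  have hRx : R x = 0 := by simp [hRdef]
  have hhs : Continuous fun y => hs (R y) (R y) := by
    unfold hs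
    refine continuous_finsetSum _ fun i _ => continuous_finsetSum _ fun j _ => ?_
    exact (hRc.matrix_elem i j).mul (hRc.matrix_elem i j)
  have hbound : ∀ y i j, (Ω y - Ω x) i j ^ 2 ≤ hs (R y) (R y) / (4 * ε ^ 2) := by
    intro y i j
    have h0 : Ω y - Ω x = sol (F y) n (R y) := sol_unique (hQ y) hε n (hLD y)
    have h1 := sol_bound (hQ y) hε n (R y)
    rw [← h0] at h1
    have h2 := entry_sq_le_hs (Ω y - Ω x) i j
    rw [le_div_iff₀ (by positivity)]
    nlinarith [sq_nonneg ε]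
  refine continuousAt_pi.2 fun i => continuousAt_pi.2 fun j => ?_
  have hc : Continuous fun y => Real.sqrt (hs (R y) (R y) / (4 * ε ^ 2)) :=
    (hhs.div_const _).sqrt
  have ht : Tendsto (fun y => Real.sqrt (hs (R y) (R y) / (4 * ε ^ 2))) (𝓝 x) (𝓝 0) := by
    have := hc.tendsto x
    simpa [hRx, hs_zero_right] using this
  have hs0 : Tendsto (fun y => Ω y i j - Ω x i j) (𝓝 x) (𝓝 0) := by
    refine squeeze_zero_norm (fun y => ?_) ht
    rw [Real.norm_eq_abs]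
    exact Real.abs_le_sqrt (hbound y i j)
  exact tendsto_sub_nhds_zero_iff.mp hs0

/-- `hs X X ≤ (∑_r |v_r|²)²`. -/
lemma hs_rowX_self_le (v : Fin p → Vec d) :
    hs (rowX v) (rowX v) ≤ (∑ r, v r ⬝ᵥ v r) ^ 2 := by
  have h0 : ∀ i j, rowX v i j ^ 2 ≤ (∑ r, v r i ^ 2) * (∑ r, v r j ^ 2) := by
    intro i j
    rw [rowX_apply]
    exact Finset.sum_mul_sq_le_sq_mul_sq _ _ _
  unfold hs
  calc ∑ i, ∑ j, rowX v i j * rowX v i j
      ≤ ∑ i, ∑ j, (∑ r, v r i ^ 2) * (∑ r, v r j ^ 2) :=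
        Finset.sum_le_sum fun i _ => Finset.sum_le_sum fun j _ => by
          rw [← sq]; exact h0 i j
    _ = (∑ i, ∑ r, v r i ^ 2) ^ 2 := by
        rw [sq, Finset.sum_mul_sum]
    _ = _ := by
        congr 1
        rw [Finset.sum_comm]
        refine Finset.sum_congr rfl fun r _ => ?_
        simp only [dotProduct, sq]

/-- `|∑_r v_r·Ω v_r| ≤ (∑|v_r|²)²/(2ε)`. -/
lemma quad_boundM {ε : ℝ} {F : Mat d} (hQ : QBound ε F) (hε : 0 < ε) (n : ℤ) (v : Fin p → Vec d) :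
    |∑ r, v r ⬝ᵥ (sol F n (rowX v) *ᵥ v r)| ≤ (∑ r, v r ⬝ᵥ v r) ^ 2 / (2 * ε) := by
  rw [← hs_rowX]
  have h := abs_hs_rem_le hQ hε (sol_spec hQ hε n (rowX v))
  refine h.trans ?_
  exact div_le_div_of_nonneg_right (hs_rowX_self_le v) (by positivity)

/-- `|Ω v_r|² ≤ (∑|v_s|²)³/(4ε²)`. -/
lemma vec_boundM {ε : ℝ} {F : Mat d} (hQ : QBound ε F) (hε : 0 < ε) (n : ℤ) (v : Fin p → Vec d)
    (r : Fin p) :
    (sol F n (rowX v) *ᵥ v r) ⬝ᵥ (sol F n (rowX v) *ᵥ v r)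
      ≤ (∑ s, v s ⬝ᵥ v s) ^ 3 / (4 * ε ^ 2) := by
  rw [le_div_iff₀ (by positivity)]
  set ρ := ∑ s, v s ⬝ᵥ v s with hρ
  have hρ0 : 0 ≤ ρ := Finset.sum_nonneg fun s _ => Finset.sum_nonneg fun i _ => mul_self_nonneg _
  have hvr : v r ⬝ᵥ v r ≤ ρ :=
    Finset.single_le_sum (f := fun s => v s ⬝ᵥ v s)
      (fun s _ => Finset.sum_nonneg fun i _ => mul_self_nonneg _) (Finset.mem_univ r)
  have hvr0 : 0 ≤ v r ⬝ᵥ v r := Finset.sum_nonneg fun i _ => mul_self_nonneg _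
  have h1 := mulVec_sq_le (sol F n (rowX v)) (v r)
  have h2 := sol_bound hQ hε n (rowX v)
  have h3 := hs_rowX_self_le v
  rw [← hρ] at h3
  have h0 := hs_self_nonneg (sol F n (rowX v))
  have h4 : 0 < 4 * ε ^ 2 := by positivity
  set B := hs (sol F n (rowX v)) (sol F n (rowX v)) with hB
  calc _ ≤ B * (v r ⬝ᵥ v r) * (4 * ε ^ 2) := mul_le_mul_of_nonneg_right h1 h4.le
    _ = (4 * ε ^ 2 * B) * (v r ⬝ᵥ v r) := by ring
    _ ≤ ρ ^ 2 * ρ := by
        apply mul_le_mul (h2.trans h3) hvr hvr0 (by positivity)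
    _ = _ := by ring

end Vale.Agent.Lib.P371.SharpM
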