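import Vale.Agent.Lib.P371.Sharp.Core
import Vale.Agent.Lib.P371.SharpM.PathM

/-!
# The core inequality of the sharp kinetic bound, matrix case, in coordinates.

For `C¹` curves `ξ_r : ℝ → ℝ^d` with `∑_r ∫ ξ_r ξ_rᵀ ≤ 1 - 2ε` put
`F x = ε + ∫_{-∞}^x ∑_r ξ_r ξ_rᵀ`, integrate the derivative of the calibrator over the line and use
the pointwise inequality `lyap_ineqM` with `kernel_limit`.
-/

open Matrix MeasureTheory Filter Topology Set

namespace Vale.Agent.Lib.P371.SharpM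

open Vale.Agent.Lib.P371.Sharp

variable {d p : ℕ}

/-- The path `F x = ε + ∫_{-∞}^x ∑_r ξ_r ξ_rᵀ`. -/
noncomputable def pathFM (ε : ℝ) (ξ : ℝ → Fin p → Vec d) (x : ℝ) : Mat d :=
  Matrix.of fun i j => (if i = j then ε else 0) + ∫ y in Iic x, rowX (ξ y) i j

/-- `v·Xv = ∑_r (v·v_r)²`. -/
lemma dot_rowX (u : Vec d) (v : Fin p → Vec d) :
    u ⬝ᵥ (rowX v *ᵥ u) = ∑ r, (u ⬝ᵥ v r) ^ 2 := by
  calc u ⬝ᵥ (rowX v *ᵥ u) = ∑ k, ∑ l, u k * u l * rowX v k l := by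
        simp only [dotProduct, mulVec, Finset.mul_sum]
        exact Finset.sum_congr rfl fun i _ => Finset.sum_congr rfl fun j _ => by ring
    _ = _ := (sum_sq_linear v u).symm

section path

variable {ε : ℝ} {ξ ξ' : ℝ → Fin p → Vec d}

lemma xi_continuousM (hξ : ∀ x r i, HasDerivAt (fun y => ξ y r i) (ξ' x r i) x) : Continuous ξ :=
  continuous_pi fun r => continuous_pi fun i =>
    continuous_iff_continuousAt.2 fun x => (hξ x r i).continuousAt

lemma xi_comp_continuous (hξc : Continuous ξ) (r : Fin p) (i : Fin d) :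
    Continuous fun y => ξ y r i :=
  (continuous_apply i).comp ((continuous_apply r).comp hξc)

lemma rowX_entry_continuous (hξc : Continuous ξ) (i j : Fin d) :
    Continuous fun y => rowX (ξ y) i j := by
  simp only [rowX_apply]
  exact continuous_finsetSum _ fun r _ =>
    (xi_comp_continuous hξc r i).mul (xi_comp_continuous hξc r j)

lemma rowX_entry_integrable (hξc : Continuous ξ) (hL2 : ∀ r i, Integrable fun x => ξ x r i ^ 2)
    (i j : Fin d) : Integrable fun y => rowX (ξ y) i j := by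
  simp only [rowX_apply]
  exact integrable_finsetSum _ fun r _ =>
    integrable_mul_of_sq (xi_comp_continuous hξc r i) (xi_comp_continuous hξc r j)
      (hL2 r i) (hL2 r j)

lemma pathFM_hasDerivAt (hξc : Continuous ξ) (hL2 : ∀ r i, Integrable fun x => ξ x r i ^ 2)
    (x : ℝ) (i j : Fin d) :
    HasDerivAt (fun y => pathFM ε ξ y i j) (rowX (ξ x) i j) x :=
  (hasDerivAt_Iic (rowX_entry_continuous hξc i j) (rowX_entry_integrable hξc hL2 i j) x).const_add _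

lemma pathFM_continuous (hξc : Continuous ξ) (hL2 : ∀ r i, Integrable fun x => ξ x r i ^ 2) :
    Continuous (pathFM ε ξ) :=
  continuous_matrix fun i j => continuous_iff_continuousAt.2 fun x =>
    (pathFM_hasDerivAt (ε := ε) hξc hL2 x i j).continuousAt

lemma integrable_dot_sqM (hξc : Continuous ξ) (hL2 : ∀ r i, Integrable fun x => ξ x r i ^ 2)
    (v : Vec d) (r : Fin p) : Integrable fun y => (v ⬝ᵥ ξ y r) ^ 2 := by
  simp only [sq_dot_eq]
  exact integrable_finsetSum _ fun i _ => integrable_finsetSum _ fun j _ =>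
    (integrable_mul_of_sq (xi_comp_continuous hξc r i) (xi_comp_continuous hξc r j)
      (hL2 r i) (hL2 r j)).const_mul _

lemma pathFM_qform (hξc : Continuous ξ) (hL2 : ∀ r i, Integrable fun x => ξ x r i ^ 2)
    (x : ℝ) (v : Vec d) :
    v ⬝ᵥ (pathFM ε ξ x *ᵥ v) = ε * (v ⬝ᵥ v) + ∫ y in Iic x, ∑ r, (v ⬝ᵥ ξ y r) ^ 2 := by
  have hI : ∀ i j, IntegrableOn (fun y => rowX (ξ y) i j) (Iic x) := fun i j =>
    (rowX_entry_integrable hξc hL2 i j).integrableOn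
  have h1 : (∫ y in Iic x, ∑ r, (v ⬝ᵥ ξ y r) ^ 2)
      = ∑ i, ∑ j, v i * v j * ∫ y in Iic x, rowX (ξ y) i j := by
    have e : ∀ y, ∑ r, (v ⬝ᵥ ξ y r) ^ 2 = ∑ i, ∑ j, v i * v j * rowX (ξ y) i j := by
      intro y
      rw [← dot_rowX]
      simp only [dotProduct, mulVec, Finset.mul_sum]
      refine Finset.sum_congr rfl fun i _ => Finset.sum_congr rfl fun j _ => by ring
    simp only [e]
    rw [integral_finsetSum _ fun i _ => integrable_finsetSum _ fun j _ => (hI i j).const_mul _]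
    refine Finset.sum_congr rfl fun i _ => ?_
    rw [integral_finsetSum _ fun j _ => (hI i j).const_mul _]
    refine Finset.sum_congr rfl fun j _ => ?_
    rw [integral_const_mul]
  rw [h1]
  simp only [dotProduct, mulVec, pathFM, Matrix.of_apply, Finset.mul_sum]
  rw [← Finset.sum_add_distrib]
  refine Finset.sum_congr rfl fun i _ => ?_
  have : ε * (v i * v i) = ∑ j, v i * (if i = j then ε else 0) * v j := by
    simp [Finset.sum_ite_eq]
    ring
  rw [this, ← Finset.sum_add_distrib]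
  refine Finset.sum_congr rfl fun j _ => ?_
  ring

lemma pathFM_symm (x : ℝ) : (pathFM ε ξ x).IsSymm := by
  refine Matrix.IsSymm.ext fun i j => ?_
  simp only [pathFM, Matrix.of_apply]
  congr 1
  · simp only [eq_comm]
  · congr 1
    ext y
    exact (rowX_symm (ξ y)).apply i j

lemma pathFM_qbound (hξc : Continuous ξ) (hL2 : ∀ r i, Integrable fun x => ξ x r i ^ 2)
    (hbes : ∀ v : Vec d, ∑ r, ∫ x, (v ⬝ᵥ ξ x r) ^ 2 ≤ (1 - 2 * ε) * (v ⬝ᵥ v)) (x : ℝ) :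
    QBound ε (pathFM ε ξ x) := by
  refine ⟨pathFM_symm x, fun v => ?_⟩
  rw [pathFM_qform hξc hL2]
  have hI : Integrable fun y => ∑ r, (v ⬝ᵥ ξ y r) ^ 2 :=
    integrable_finsetSum _ fun r _ => integrable_dot_sqM hξc hL2 v r
  have h0 : 0 ≤ ∫ y in Iic x, ∑ r, (v ⬝ᵥ ξ y r) ^ 2 :=
    integral_nonneg fun y => Finset.sum_nonneg fun r _ => sq_nonneg _
  have h1 : ∫ y in Iic x, ∑ r, (v ⬝ᵥ ξ y r) ^ 2 ≤ ∫ y, ∑ r, (v ⬝ᵥ ξ y r) ^ 2 :=
    setIntegral_le_integral hI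
      (Eventually.of_forall fun y => Finset.sum_nonneg fun r _ => sq_nonneg _)
  have h2 := hbes v
  rw [← integral_finsetSum _ fun r _ => integrable_dot_sqM hξc hL2 v r] at h2
  constructor
  · linarith
  · linarith

end path

/-- `ρ = ∑_r |ξ_r|²`. -/
noncomputable def rhoM (v : Fin p → Vec d) : ℝ := ∑ r, v r ⬝ᵥ v r

lemma rhoM_nonneg (v : Fin p → Vec d) : 0 ≤ rhoM v :=
  Finset.sum_nonneg fun r _ => dot_self_nonneg _

/-- The trace of the cube is controlled by `ρ³`. -/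
lemma abs_trace_cube_le (v : Fin p → Vec d) :
    |(rowX v * rowX v * rowX v).trace| ≤ (d : ℝ) ^ 3 * rhoM v ^ 3 := by
  have h0 := rhoM_nonneg v
  have e : (rowX v * rowX v * rowX v).trace
      = ∑ j, ∑ k, ∑ l, rowX v j k * rowX v k l * rowX v l j := by
    simp only [Matrix.trace, Matrix.diag_apply, Matrix.mul_apply, Finset.sum_mul]
    refine Finset.sum_congr rfl fun j _ => ?_
    rw [Finset.sum_comm]
  rw [e]
  have hb : ∀ j k l, |rowX v j k * rowX v k l * rowX v l j| ≤ rhoM v ^ 3 := by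
    intro j k l
    rw [abs_mul, abs_mul]
    have h6 : |rowX v j k| ≤ rhoM v := abs_rowX_le v j k
    have h7 : |rowX v k l| ≤ rhoM v := abs_rowX_le v k l
    have h8 : |rowX v l j| ≤ rhoM v := abs_rowX_le v l j
    calc |rowX v j k| * |rowX v k l| * |rowX v l j| ≤ rhoM v * rhoM v * rhoM v := by gcongr
      _ = _ := by ring
  calc |∑ j, ∑ k, ∑ l, rowX v j k * rowX v k l * rowX v l j|
      ≤ ∑ j : Fin d, ∑ k : Fin d, ∑ l : Fin d, rhoM v ^ 3 := by
        refine (Finset.abs_sum_le_sum_abs _ _).trans (Finset.sum_le_sum fun j _ => ?_)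
        refine (Finset.abs_sum_le_sum_abs _ _).trans (Finset.sum_le_sum fun k _ => ?_)
        refine (Finset.abs_sum_le_sum_abs _ _).trans (Finset.sum_le_sum fun l _ => hb j k l)
    _ = _ := by
        simp only [Finset.sum_const, Finset.card_univ, Fintype.card_fin, nsmul_eq_mul]
        ring

/-- The core estimate for fixed `δ`, at truncation `M`. -/
theorem core_deltaM {ε δ : ℝ} (hε : 0 < ε) (hδ : 0 ≤ δ) {ξ ξ' : ℝ → Fin p → Vec d}
    (hξ : ∀ x r i, HasDerivAt (fun y => ξ y r i) (ξ' x r i) x) (hξ'c : Continuous ξ')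
    (hL2 : ∀ r i, Integrable fun x => ξ x r i ^ 2) (hL2' : ∀ r i, Integrable fun x => ξ' x r i ^ 2)
    (hbes : ∀ v : Vec d, ∑ r, ∫ x, (v ⬝ᵥ ξ x r) ^ 2 ≤ (1 - 2 * ε) * (v ⬝ᵥ v)) (M : ℕ)
    (hM : ∀ A B : ℝ, 2 * ε ≤ A → A ≤ 2 - 2 * ε → 2 * ε ≤ B → B ≤ 2 - 2 * ε →
      |DM M A B - SM M A * SM M B - Real.pi ^ 2 / 4 *
        (1 + (Real.sinc (Real.pi * (A - B) / 2) - Real.cos (Real.pi * (A - B) / 2)) /
          (Real.sin (Real.pi * A / 2) * Real.sin (Real.pi * B / 2)))| ≤ δ) :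
    Integrable (fun x => rhoM (ξ x) ^ 3) ∧
    Integrable (fun x => (rowX (ξ x) * rowX (ξ x) * rowX (ξ x)).trace) ∧
    Real.pi ^ 2 / 4 * ∫ x, (rowX (ξ x) * rowX (ξ x) * rowX (ξ x)).trace
      ≤ (∑ r, ∫ x, ξ' x r ⬝ᵥ ξ' x r) + δ * d ^ 3 * ∫ x, rhoM (ξ x) ^ 3 := by
  have hξc : Continuous ξ := xi_continuousM hξ
  have hξrc : ∀ r, Continuous fun x => ξ x r := fun r => (continuous_apply r).comp hξc
  have hξ'rc : ∀ r, Continuous fun x => ξ' x r := fun r => (continuous_apply r).comp hξ'c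
  set ρ : ℝ → ℝ := fun x => rhoM (ξ x) with hρ
  have hρc : Continuous ρ := by
    simp only [hρ, rhoM]
    exact continuous_finsetSum _ fun r _ => Continuous.dotProduct (hξrc r) (hξrc r)
  have hρ0 : ∀ x, 0 ≤ ρ x := fun x => rhoM_nonneg _
  -- decay of `ρ`
  have hdec : Tendsto ρ atTop (𝓝 0) ∧ Tendsto ρ atBot (𝓝 0) := by
    have hi := fun r i => tendsto_sq_zero (fun x => hξ x r i)
      ((continuous_apply i).comp (hξ'rc r)) (hL2 r i) (hL2' r i)
    simp only [hρ, rhoM, dotProduct, ← sq]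
    constructor
    · simpa using tendsto_finsetSum Finset.univ fun r _ =>
        tendsto_finsetSum Finset.univ fun i _ => (hi r i).1
    · simpa using tendsto_finsetSum Finset.univ fun r _ =>
        tendsto_finsetSum Finset.univ fun i _ => (hi r i).2
  obtain ⟨C, hC0, hC⟩ := bdd_of_tendsto hρc hdec.1 hdec.2
  have hI1 : Integrable ρ := by
    simp only [hρ, rhoM]
    exact integrable_finsetSum _ fun r _ => integrable_self_dot (hL2 r)
  have hI1' : ∀ r, Integrable fun x => ξ' x r ⬝ᵥ ξ' x r := fun r => integrable_self_dot (hL2' r)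
  have hI3 : Integrable fun x => ρ x ^ 3 := by
    refine (hI1.const_mul (C ^ 2)).mono' (hρc.pow 3).aestronglyMeasurable
      (Eventually.of_forall fun x => ?_)
    have h0 := hρ0 x
    have h1 := hC x
    rw [Real.norm_of_nonneg (by positivity)]
    calc ρ x ^ 3 = ρ x ^ 2 * ρ x := by ring
      _ ≤ C ^ 2 * ρ x := by
        apply mul_le_mul_of_nonneg_right _ h0
        exact pow_le_pow_left₀ h0 h1 2
  have hXc : Continuous fun x => rowX (ξ x) := continuous_rowX hξc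
  have hTrc : Continuous fun x => (rowX (ξ x) * rowX (ξ x) * rowX (ξ x)).trace :=
    Continuous.matrix_trace ((hXc.matrix_mul hXc).matrix_mul hXc)
  have hIT : Integrable fun x => (rowX (ξ x) * rowX (ξ x) * rowX (ξ x)).trace := by
    refine (hI3.const_mul ((d : ℝ) ^ 3)).mono' hTrc.aestronglyMeasurable
      (Eventually.of_forall fun x => ?_)
    rw [Real.norm_eq_abs]
    exact abs_trace_cube_le _
  refine ⟨hI3, hIT, ?_⟩
  set F : ℝ → Mat d := pathFM ε ξ with hFdef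
  have hQ : ∀ x, QBound ε (F x) := pathFM_qbound hξc hL2 hbes
  have hFc : Continuous F := pathFM_continuous hξc hL2
  have hFd : ∀ x i j, HasDerivAt (fun y => F y i j) (rowX (ξ x) i j) x :=
    pathFM_hasDerivAt hξc hL2
  set a : ℤ → Fin p → ℝ → Vec d := fun n r x => sol (F x) n (rowX (ξ x)) *ᵥ ξ x r with ha
  have hac : ∀ n r, Continuous (a n r) := fun n r =>
    Continuous.matrix_mulVec (continuous_solM hε n hξc hFc hQ) (hξrc r)
  have haa : ∀ n r x, a n r x ⬝ᵥ a n r x ≤ ρ x ^ 3 / (4 * ε ^ 2) := fun n r x =>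
    vec_boundM (hQ x) hε n (ξ x) r
  have haaI : ∀ n r, Integrable fun x => a n r x ⬝ᵥ a n r x := fun n r =>
    (hI3.div_const (4 * ε ^ 2)).mono'
      (Continuous.dotProduct (hac n r) (hac n r)).aestronglyMeasurable
      (Eventually.of_forall fun x => by
        rw [Real.norm_of_nonneg (dot_self_nonneg _)]
        exact haa n r x)
  have hmixI : ∀ n r, Integrable fun x => ξ' x r ⬝ᵥ a n r x := fun n r =>
    ((hI1' r).add (haaI n r)).mono' (Continuous.dotProduct (hξ'rc r) (hac n r)).aestronglyMeasurable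
      (Eventually.of_forall fun x => by
        rw [Real.norm_eq_abs]
        simp only [Pi.add_apply]
        have := two_abs_dot_le (ξ' x r) (a n r x)
        have h2 := abs_nonneg (ξ' x r ⬝ᵥ a n r x)
        linarith)
  -- each term integrates to zero
  have hterm : ∀ n, Integrable (fun x => ∑ r, (2 * (ξ' x r ⬝ᵥ a n r x) - a n r x ⬝ᵥ a n r x)) ∧
      ∫ x, ∑ r, (2 * (ξ' x r ⬝ᵥ a n r x) - a n r x ⬝ᵥ a n r x) = 0 := by
    intro n
    have hI : Integrable fun x => ∑ r, (2 * (ξ' x r ⬝ᵥ a n r x) - a n r x ⬝ᵥ a n r x) :=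
      integrable_finsetSum _ fun r _ => ((hmixI n r).const_mul 2).sub (haaI n r)
    refine ⟨hI, ?_⟩
    have hbound : ∀ x, |(1 / 2 : ℝ) * ∑ r, (ξ x r ⬝ᵥ a n r x)| ≤ (1 / 2) * (ρ x ^ 2 / (2 * ε)) := by
      intro x
      rw [abs_mul, abs_of_pos (by norm_num : (0 : ℝ) < 1 / 2)]
      exact mul_le_mul_of_nonneg_left (quad_boundM (hQ x) hε n (ξ x)) (by norm_num)
    have hlim : ∀ l : Filter ℝ, Tendsto ρ l (𝓝 0) →
        Tendsto (fun x => (1 / 2 : ℝ) * ∑ r, (ξ x r ⬝ᵥ a n r x)) l (𝓝 0) := by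
      intro l hl
      have h1 : Tendsto (fun x => (1 / 2 : ℝ) * (ρ x ^ 2 / (2 * ε))) l (𝓝 0) := by
        simpa using ((hl.pow 2).div_const (2 * ε)).const_mul (1 / 2 : ℝ)
      exact squeeze_zero_norm (fun x => by
        rw [Real.norm_eq_abs]
        exact hbound x) h1
    have := integral_of_hasDerivAt_of_tendsto
      (f := fun x => (1 / 2 : ℝ) * ∑ r, (ξ x r ⬝ᵥ a n r x))
      (f' := fun x => ∑ r, (2 * (ξ' x r ⬝ᵥ a n r x) - a n r x ⬝ᵥ a n r x))
      (fun x => hasDerivAt_bM hε n hξ hFd hQ x) hI (hlim _ hdec.2) (hlim _ hdec.1)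
    simpa using this
  -- sum over the window
  set W := Finset.Icc (-(M : ℤ)) (M : ℤ) with hW
  set s : Fin p → ℝ → Vec d := fun r x => ∑ n ∈ W, a n r x with hs
  have hsumI : Integrable fun x => ∑ n ∈ W, ∑ r, (2 * (ξ' x r ⬝ᵥ a n r x) - a n r x ⬝ᵥ a n r x) :=
    integrable_finsetSum _ fun n _ => (hterm n).1
  have hsum0 : ∫ x, ∑ n ∈ W, ∑ r, (2 * (ξ' x r ⬝ᵥ a n r x) - a n r x ⬝ᵥ a n r x) = 0 := by
    rw [integral_finsetSum _ fun n _ => (hterm n).1]
    exact Finset.sum_eq_zero fun n _ => (hterm n).2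
  have hpt : ∀ x, ∑ n ∈ W, ∑ r, (2 * (ξ' x r ⬝ᵥ a n r x) - a n r x ⬝ᵥ a n r x)
      ≤ ∑ r, ξ' x r ⬝ᵥ ξ' x r - (Real.pi ^ 2 / 4 * (rowX (ξ x) * rowX (ξ x) * rowX (ξ x)).trace
        - δ * d ^ 3 * ρ x ^ 3) := by
    intro x
    have h1 := lyap_ineqM (hQ x) hε hδ M hM (ξ x)
    simp only at h1
    have h3 : ∑ n ∈ W, ∑ r, (2 * (ξ' x r ⬝ᵥ a n r x) - a n r x ⬝ᵥ a n r x)
        = ∑ r, 2 * (ξ' x r ⬝ᵥ s r x) - ∑ n ∈ W, ∑ r, a n r x ⬝ᵥ a n r x := by
      have e1 : ∑ n ∈ W, ∑ r, 2 * (ξ' x r ⬝ᵥ a n r x) = ∑ r, 2 * (ξ' x r ⬝ᵥ s r x) := by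
        rw [Finset.sum_comm]
        refine Finset.sum_congr rfl fun r _ => ?_
        rw [← Finset.mul_sum]
        simp only [hs, dotProduct_sum]
      simp only [Finset.sum_sub_distrib]
      rw [e1]
    rw [h3]
    have h2 : ∑ r, 2 * (ξ' x r ⬝ᵥ s r x) ≤ ∑ r, ξ' x r ⬝ᵥ ξ' x r + ∑ r, s r x ⬝ᵥ s r x := by
      rw [← Finset.sum_add_distrib]
      exact Finset.sum_le_sum fun r _ => two_dot_le _ _
    have h4 : Real.pi ^ 2 / 4 * (rowX (ξ x) * rowX (ξ x) * rowX (ξ x)).trace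
        - δ * d ^ 3 * ρ x ^ 3 ≤ (∑ n ∈ W, ∑ r, a n r x ⬝ᵥ a n r x) - ∑ r, s r x ⬝ᵥ s r x := h1
    linarith
  have i1 : Integrable fun x => ∑ r, ξ' x r ⬝ᵥ ξ' x r :=
    integrable_finsetSum _ fun r _ => hI1' r
  have i2 : Integrable fun x => Real.pi ^ 2 / 4 * (rowX (ξ x) * rowX (ξ x) * rowX (ξ x)).trace :=
    hIT.const_mul _
  have i3 : Integrable fun x => δ * d ^ 3 * ρ x ^ 3 := hI3.const_mul _
  have i23 : Integrable fun x => Real.pi ^ 2 / 4 * (rowX (ξ x) * rowX (ξ x) * rowX (ξ x)).trace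
      - δ * d ^ 3 * ρ x ^ 3 := i2.sub i3
  have hRI : Integrable fun x => ∑ r, ξ' x r ⬝ᵥ ξ' x r -
      (Real.pi ^ 2 / 4 * (rowX (ξ x) * rowX (ξ x) * rowX (ξ x)).trace - δ * d ^ 3 * ρ x ^ 3) :=
    i1.sub i23
  have hfinal := integral_mono hsumI hRI hpt
  rw [hsum0, integral_sub i1 i23, integral_sub i2 i3, integral_const_mul, integral_const_mul,
    integral_finsetSum _ fun r _ => hI1' r] at hfinal
  linarith

/-- The core inequality for `p` curves in `ℝ^d` with `∑_r ∫ ξ_r ξ_rᵀ ≤ 1 - 2ε`. -/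
theorem core_coordM {ε : ℝ} (hε : 0 < ε) {ξ ξ' : ℝ → Fin p → Vec d}
    (hξ : ∀ x r i, HasDerivAt (fun y => ξ y r i) (ξ' x r i) x) (hξ'c : Continuous ξ')
    (hL2 : ∀ r i, Integrable fun x => ξ x r i ^ 2) (hL2' : ∀ r i, Integrable fun x => ξ' x r i ^ 2)
    (hbes : ∀ v : Vec d, ∑ r, ∫ x, (v ⬝ᵥ ξ x r) ^ 2 ≤ (1 - 2 * ε) * (v ⬝ᵥ v)) :
    Integrable (fun x => (rowX (ξ x) * rowX (ξ x) * rowX (ξ x)).trace) ∧
    Real.pi ^ 2 / 4 * ∫ x, (rowX (ξ x) * rowX (ξ x) * rowX (ξ x)).trace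
      ≤ ∑ r, ∫ x, ξ' x r ⬝ᵥ ξ' x r := by
  have hkey : ∀ δ : ℝ, 0 < δ → Integrable (fun x => rhoM (ξ x) ^ 3) ∧
      Integrable (fun x => (rowX (ξ x) * rowX (ξ x) * rowX (ξ x)).trace) ∧
      Real.pi ^ 2 / 4 * ∫ x, (rowX (ξ x) * rowX (ξ x) * rowX (ξ x)).trace
        ≤ (∑ r, ∫ x, ξ' x r ⬝ᵥ ξ' x r) + δ * d ^ 3 * ∫ x, rhoM (ξ x) ^ 3 := by
    intro δ hδ
    obtain ⟨M₀, hM₀⟩ := kernel_limit hε hδ
    exact core_deltaM hε hδ.le hξ hξ'c hL2 hL2' hbes M₀ (hM₀ M₀ le_rfl)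
  refine ⟨(hkey 1 one_pos).2.1, ?_⟩
  set I := ∫ x, rhoM (ξ x) ^ 3 with hI
  have hI0 : 0 ≤ I := integral_nonneg fun x => pow_nonneg (rhoM_nonneg _) 3
  refine le_of_forall_pos_le_add fun η hη => ?_
  have hD : 0 < (d : ℝ) ^ 3 * I + 1 := by positivity
  have h := (hkey (η / ((d : ℝ) ^ 3 * I + 1)) (by positivity)).2.2
  have h2 : η / ((d : ℝ) ^ 3 * I + 1) * (d : ℝ) ^ 3 * I ≤ η := by
    have : η / ((d : ℝ) ^ 3 * I + 1) * (d : ℝ) ^ 3 * I
        = η * ((d : ℝ) ^ 3 * I) / ((d : ℝ) ^ 3 * I + 1) := by ring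
    rw [this, div_le_iff₀ hD]
    nlinarith
  linarith

end Vale.Agent.Lib.P371.SharpM
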